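import Vale.Agent.P159.T1.NC.H731.MsQ
import Vale.Agent.P159.Bdl.B9

set_option linter.all false

/-!
The end game: if the stiffness of the block of side `l` is below `1/(2π)` by a fixed amount then
the correlation length is at most a power of `l`, with constants uniform in `b`.
-/

open MeasureTheory Filter Topology
open scoped BigOperators

namespace Vale.Agent.P159

namespace NC.H731

open XY (C nm)

/-- A power law upper bound on a sublattice extends to all of `ℤ²`. -/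
theorem decay_allQ {b : ℝ} (hb : 0 < b) {l : ℕ} (hl : 1 ≤ l) {K eta c : ℝ} (hK : 0 < K)
    (heta : 0 ≤ eta) (hc0 : 0 < c) (hy0 : ∀ z ∈ box l, c ≤ C b z)
    (h : ∀ x : ℤ × ℤ, (l : ℤ) ∣ x.1 → (l : ℤ) ∣ x.2 → x ≠ 0 → C b x ≤ K * (nm x : ℝ) ^ (-eta)) :
    ∀ x : ℤ × ℤ, x ≠ 0 → C b x ≤ (K * 2 ^ eta / c + (2 * l) ^ eta) * (nm x : ℝ) ^ (-eta) := by
  have hl0 : (0 : ℝ) < l := by exact_mod_cast hl
  intro x hx
  have hn0 : (0 : ℝ) < nm x := by exact_mod_cast Nat.pos_of_ne_zero (XY.nm_ne_zero hx)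
  have hpow := Real.rpow_nonneg hn0.le (-eta)
  rcases lt_or_ge (nm x) (2 * l) with hlt | hge
  · -- small distances
    have h1 : (nm x : ℝ) ≤ 2 * l := by exact_mod_cast hlt.le
    have h2 : 1 ≤ (2 * (l : ℝ)) ^ eta * (nm x : ℝ) ^ (-eta) := by
      rw [Real.rpow_neg hn0.le, ← div_eq_mul_inv, one_le_div (Real.rpow_pos_of_pos hn0 _)]
      exact Real.rpow_le_rpow hn0.le h1 heta
    calc C b x ≤ 1 := XY.C_le_one b x
      _ ≤ (2 * (l : ℝ)) ^ eta * (nm x : ℝ) ^ (-eta) := h2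
      _ ≤ (K * 2 ^ eta / c + (2 * l) ^ eta) * (nm x : ℝ) ^ (-eta) := by
          refine mul_le_mul_of_nonneg_right ?_ hpow
          have : 0 ≤ K * 2 ^ eta / c := by positivity
          (clear * - this; linarith)
  · -- large distances
    have hlz : (0 : ℤ) < l := by exact_mod_cast hl
    set z : ℤ × ℤ := (x.1 % l, x.2 % l) with hz
    set x'' : ℤ × ℤ := ((l : ℤ) * (x.1 / l), (l : ℤ) * (x.2 / l)) with hx''
    have hsum : x'' + z = x := by
      rw [hx'', hz]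
      ext
      · exact Int.mul_ediv_add_emod _ _
      · exact Int.mul_ediv_add_emod _ _
    have hzl : nm z ≤ l := by
      have h1 := Int.emod_nonneg x.1 hlz.ne'
      have h2 := Int.emod_lt_of_pos x.1 hlz
      have h3 := Int.emod_nonneg x.2 hlz.ne'
      have h4 := Int.emod_lt_of_pos x.2 hlz
      unfold nm
      rw [hz]
      simp only
      omega
    have hnm : nm x ≤ nm x'' + l := by
      have := XY.nm_add_le x'' z
      rw [hsum] at this
      omega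
    have hx''0 : x'' ≠ 0 := by
      intro h0
      rw [h0, XY.nm_zero] at hnm
      (clear * - hl hge hnm; omega)
    have hC1 : C b x * c ≤ C b x'' := by
      have h1 := XY.C_supermul hb.le x (-z)
      rw [XY.C_neg hb.le] at h1
      have e : x + -z = x'' := by rw [← hsum]; abel
      rw [e] at h1
      refine (mul_le_mul_of_nonneg_left ?_ (XY.C_nonneg hb.le x)).trans h1
      exact hy0 z (XY.mem_box_iff_nm.2 hzl)
    have hC2 := h x'' (Dvd.intro _ rfl) (Dvd.intro _ rfl) hx''0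
    have hhalf : (nm x : ℝ) / 2 ≤ nm x'' := by
      have h1 : (nm x : ℝ) ≤ nm x'' + l := by exact_mod_cast hnm
      have h2 : 2 * (l : ℝ) ≤ nm x := by exact_mod_cast hge
      linarith only [h1, h2]
    have h3 : (nm x'' : ℝ) ^ (-eta) ≤ 2 ^ eta * (nm x : ℝ) ^ (-eta) := by
      have h4 : (nm x'' : ℝ) ^ (-eta) ≤ ((nm x : ℝ) / 2) ^ (-eta) :=
        Real.rpow_le_rpow_of_nonpos (by (clear * - hn0; positivity)) hhalf (by linarith only [heta])
      refine h4.trans (le_of_eq ?_)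
      rw [Real.div_rpow hn0.le (by norm_num), Real.rpow_neg (by norm_num : (0 : ℝ) ≤ 2)]
      rw [div_inv_eq_mul, mul_comm]
    calc C b x = C b x * c / c := by (clear * - hc0; field_simp)
      _ ≤ K * (2 ^ eta * (nm x : ℝ) ^ (-eta)) / c := by
          refine div_le_div_of_nonneg_right ?_ hc0.le
          exact hC1.trans (hC2.trans (mul_le_mul_of_nonneg_left h3 hK.le))
      _ = K * 2 ^ eta / c * (nm x : ℝ) ^ (-eta) := by ring
      _ ≤ (K * 2 ^ eta / c + (2 * l) ^ eta) * (nm x : ℝ) ^ (-eta) := by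
          refine mul_le_mul_of_nonneg_right ?_ hpow
          have : (0 : ℝ) ≤ (2 * (l : ℝ)) ^ eta := by positivity
          linarith only [this]

/-- bound of the boundary sum by the largest correlation on the boundary -/
theorem phi_le_sup {b : ℝ} (hb : 0 < b) {n : ℕ} (hn : 1 ≤ n) {D : ℝ} (hD : 0 ≤ D)
    (h : ∀ u : ℤ × ℤ, n ≤ nm u → nm u ≤ n + 1 → C b u ≤ D) :
    XY.phi b n ≤ 48 * b * n * D := by
  have hn0 : (0 : ℝ) < n := by exact_mod_cast hn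
  have h1 : ∀ u ∈ box (n + 1), ∑ v ∈ box (n + 1), b * XY.cross n u v * C b u
      ≤ if u ∈ box (n + 1) \ box (n - 1) then b * 2 * D else 0 := by
    intro u hu
    split_ifs with h2
    · have hnu : n ≤ nm u ∧ nm u ≤ n + 1 := by
        rw [Finset.mem_sdiff, XY.mem_box_iff_nm, XY.mem_box_iff_nm] at h2
        omega
      have hCu : C b u ≤ D := h u hnu.1 hnu.2
      have hA : ∑ v ∈ box (n + 1), XY.A u v ≤ 2 := by
        have := XY.sum_A_weight (n + 1) 0 ⟨u, hu⟩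
        simp only [zero_mul, Real.exp_zero, mul_one, Real.cosh_zero] at this
        rw [Finset.sum_coe_sort (box (n + 1)) (fun v => XY.A u v)] at this
        linarith only [this]
      calc ∑ v ∈ box (n + 1), b * XY.cross n u v * C b u
          ≤ ∑ v ∈ box (n + 1), b * XY.A u v * D := by
            refine Finset.sum_le_sum fun v _ => ?_
            have hc : XY.cross n u v ≤ XY.A u v := by
              unfold XY.cross; split_ifs
              · exact XY.A_nonneg u v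
              · exact le_rfl
            exact mul_le_mul (mul_le_mul_of_nonneg_left hc hb.le) hCu (XY.C_nonneg hb.le _)
              (mul_nonneg hb.le (XY.A_nonneg _ _))
        _ = b * (∑ v ∈ box (n + 1), XY.A u v) * D := by
            rw [Finset.mul_sum, Finset.sum_mul]
        _ ≤ b * 2 * D := by
            refine mul_le_mul_of_nonneg_right (mul_le_mul_of_nonneg_left hA hb.le) hD
    · refine le_of_eq (Finset.sum_eq_zero fun v _ => ?_)
      have : XY.cross n u v = 0 := by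
        by_contra hne
        apply h2
        rw [Finset.mem_sdiff, XY.mem_box_iff_nm, XY.mem_box_iff_nm]
        have := XY.cross_support hne
        omega
      rw [this]; ring
  have hcard : ((box (n + 1) \ box (n - 1)).card : ℝ) ≤ 24 * n := by
    have h3 : (box (n + 1) \ box (n - 1)).card = (2 * (n + 1) + 1) ^ 2 - (2 * (n - 1) + 1) ^ 2 := by
      rw [Finset.card_sdiff_of_subset (XY.box_mono (by omega)), XY.card_box, XY.card_box]
    obtain ⟨m, rfl⟩ : ∃ m, n = m + 1 := ⟨n - 1, by omega⟩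
    have h4 : (2 * (m + 1 + 1) + 1) ^ 2 - (2 * (m + 1 - 1) + 1) ^ 2 ≤ 24 * (m + 1) := by
      rw [Nat.add_sub_cancel]
      apply Nat.sub_le_of_le_add
      nlinarith only []
    rw [h3]
    exact_mod_cast h4
  calc XY.phi b n ≤ ∑ u ∈ box (n + 1), (if u ∈ box (n + 1) \ box (n - 1)
          then b * 2 * D else 0) := Finset.sum_le_sum h1
    _ = ((box (n + 1) \ box (n - 1)).card : ℝ) * (b * 2 * D) := by
        rw [← Finset.sum_filter, Finset.sum_const, nsmul_eq_mul]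
        congr 2
        congr 1
        ext u
        simp only [Finset.mem_filter, Finset.mem_sdiff]
        (clear * -; tauto)
    _ ≤ (24 * n) * (b * 2 * D) := by
        refine mul_le_mul_of_nonneg_right hcard ?_
        positivity
    _ = 48 * b * n * D := by ring

/-- quantitative finite size criterion -/
theorem mass_ge_of_phi {b : ℝ} (hb : 0 < b) {n : ℕ} (h : XY.phi b n ≤ 1 / 2) :
    1 / (2 * ((n : ℝ) + 1)) ≤ mass b := by
  have hlog : (1 : ℝ) / 2 ≤ Real.log 2 := by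
    have := Real.log_two_gt_d9
    linarith
  have hn : (0 : ℝ) < (n : ℝ) + 1 := by (clear * -; positivity)
  have hmain : Real.log 2 / ((n : ℝ) + 1) ≤ mass b := by
    have h1 : Tendsto (fun k : ℕ => (k + 1) * (n + 1)) atTop atTop :=
      Tendsto.atTop_mul_const' (Nat.succ_pos n) (tendsto_add_atTop_nat 1)
    have h2 := (XY.tendsto_ulog hb).comp h1
    refine ge_of_tendsto' h2 fun k => ?_
    simp only [Function.comp]
    set N : ℕ := (k + 1) * (n + 1) with hN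
    have hNm : nm ((N : ℤ), 0) = N := by
      unfold nm; simp only [Int.natAbs_natCast, Int.natAbs_zero, zero_le, sup_of_le_left]
    have h3 : C b ((N : ℤ), 0) ≤ (1 / 2) ^ (k + 1) :=
      (XY.C_le_phi_pow hb.le n (k + 1) _ (by rw [hNm])).trans
        (pow_le_pow_left₀ (XY.phi_nonneg hb.le n) h _)
    have h4 := Real.log_le_log (XY.C_axis_pos hb N) h3
    rw [Real.log_pow, one_div, Real.log_inv] at h4
    have hk : (0 : ℝ) < (k : ℝ) + 1 := by (clear * -; positivity)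
    have hNr : (N : ℝ) = ((k : ℝ) + 1) * ((n : ℝ) + 1) := by rw [hN]; push_cast; ring
    unfold XY.ulog
    rw [hNr, div_le_div_iff₀ hn (by (clear * -; positivity))]
    push_cast at h4
    nlinarith only [h4, hn]
  refine le_trans ?_ hmain
  rw [div_le_div_iff₀ (by positivity) hn]
  nlinarith only [hlog, hn]

theorem axis_pow {b c1 : ℝ} (hb : 0 < b) (h0 : 0 ≤ c1) (h1 : c1 ≤ C b (1, 0)) (r : ℕ) :
    c1 ^ r ≤ C b ((r : ℤ), 0) := by
  induction r with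
  | zero =>
    rw [pow_zero]
    have : (((0 : ℕ) : ℤ), (0 : ℤ)) = (0 : ℤ × ℤ) := rfl
    rw [this, XY.C_zero]
  | succ r ih =>
    have h2 := XY.C_supermul hb.le ((r : ℤ), 0) (1, 0)
    have e : ((r : ℤ), (0 : ℤ)) + (1, 0) = (((r + 1 : ℕ) : ℤ), 0) := by
      ext <;> simp
    rw [e] at h2
    refine le_trans ?_ h2
    rw [pow_succ]
    exact mul_le_mul ih h1 h0 (XY.C_nonneg hb.le _)

/-- polynomial lower bound on the axis as long as the boundary sums are large -/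
theorem axis_low {b c1 B : ℝ} (hb : 0 < b) (hbB : b ≤ B) (h0 : 0 < c1) (hc1 : c1 ≤ 1)
    (h1 : c1 ≤ C b (1, 0)) {l : ℕ} (hl : 1 ≤ l)
    (hphi : ∀ n : ℕ, 1 ≤ n → n ≤ l → 1 / 2 < XY.phi b n) {k : ℕ} (hk : k ≤ l) :
    c1 ^ 3 * (1 / (96 * (B + 1) * l)) ^ 2 ≤ C b ((k : ℤ), 0) := by
  have hl1 : (1 : ℝ) ≤ l := by exact_mod_cast hl
  have hB : 0 < B := lt_of_lt_of_le hb hbB
  obtain ⟨g, hg⟩ : ∃ g, g = 1 / (96 * (B + 1) * (l : ℝ)) := ⟨_, rfl⟩
  have hg0 : 0 < g := by rw [hg]; positivity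
  have hg1 : g ≤ 1 := by
    rw [hg, div_le_one (by positivity)]
    nlinarith
  have hg2 : g ^ 2 ≤ 1 := pow_le_one₀ hg0.le hg1
  rw [← hg]
  have hc3 : 0 < c1 ^ 3 := by positivity
  by_cases hk3 : k ≤ 3
  · calc c1 ^ 3 * g ^ 2 ≤ c1 ^ 3 * 1 := mul_le_mul_of_nonneg_left hg2 hc3.le
      _ ≤ c1 ^ k := by rw [mul_one]; exact pow_le_pow_of_le_one h0.le hc1 hk3
      _ ≤ _ := axis_pow hb h0.le h1 k
  · push Not at hk3
    obtain ⟨n, hn⟩ : ∃ n : ℕ, n = k / 2 - 1 := ⟨_, rfl⟩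
    have hn1 : 1 ≤ n := by omega
    have hnl : n ≤ l := by omega
    have hn0 : (0 : ℝ) < n := by exact_mod_cast hn1
    -- a boundary point with a large correlation
    obtain ⟨u, hu1, hu2, hu3⟩ : ∃ u : ℤ × ℤ, n ≤ nm u ∧ nm u ≤ n + 1 ∧ g ≤ C b u := by
      by_contra hcon
      push Not at hcon
      have h2 := phi_le_sup hb hn1 hg0.le (fun u a1 a2 => (hcon u a1 a2).le)
      have h3 := hphi n hn1 hnl
      have h4 : 48 * b * n * g ≤ 1 / 2 := by
        have h5 : (n : ℝ) ≤ l := by exact_mod_cast hnl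
        have h6 : 48 * b * n ≤ 48 * (B + 1) * l := by
          have : b ≤ B + 1 := by linarith
          gcongr
        calc 48 * b * n * g ≤ 48 * (B + 1) * l * g := mul_le_mul_of_nonneg_right h6 hg0.le
          _ = 1 / 2 := by rw [hg]; field_simp; norm_num
      linarith
    have h2 := XY.C_sq_le hb.le u
    have h3 : g ^ 2 ≤ C b (2 * (nm u : ℤ), 0) :=
      (pow_le_pow_left₀ hg0.le hu3 2).trans h2
    obtain ⟨r, hr⟩ : ∃ r : ℕ, r = k - 2 * nm u := ⟨_, rfl⟩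
    have hr3 : r ≤ 3 := by omega
    have hkr : 2 * nm u + r = k := by omega
    have h4 := XY.C_supermul hb.le (2 * (nm u : ℤ), 0) ((r : ℤ), 0)
    have e : (2 * (nm u : ℤ), (0 : ℤ)) + ((r : ℤ), 0) = ((k : ℤ), 0) := by
      apply Prod.ext
      · simp only [Prod.fst_add]; exact_mod_cast hkr
      · simp
    rw [e] at h4
    refine le_trans ?_ h4
    rw [mul_comm]
    refine mul_le_mul h3 ?_ hc3.le (XY.C_nonneg hb.le _)
    exact (pow_le_pow_of_le_one h0.le hc1 hr3).trans (axis_pow hb h0.le h1 r)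

theorem C_axis_natAbs {b : ℝ} (hb : 0 < b) (a : ℤ) : C b (a, 0) = C b ((a.natAbs : ℤ), 0) := by
  rcases Int.natAbs_eq a with h | h
  · rw [← h]
  · have e : (a, (0 : ℤ)) = -((a.natAbs : ℤ), (0 : ℤ)) := by
      apply Prod.ext
      · exact h
      · simp
    rw [e, XY.C_neg hb.le]

/-- polynomial lower bound in a box as long as the boundary sums are large -/
theorem box_low {b c1 B : ℝ} (hb : 0 < b) (hbB : b ≤ B) (h0 : 0 < c1) (hc1 : c1 ≤ 1)
    (h1 : c1 ≤ C b (1, 0)) {l : ℕ} (hl : 1 ≤ l)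
    (hphi : ∀ n : ℕ, 1 ≤ n → n ≤ l → 1 / 2 < XY.phi b n) {z : ℤ × ℤ} (hz : z ∈ box l) :
    (c1 ^ 3 * (1 / (96 * (B + 1) * l)) ^ 2) ^ 2 ≤ C b z := by
  have hB : 0 < B := lt_of_lt_of_le hb hbB
  rw [XY.mem_box_iff_nm] at hz
  have hz1 : z.1.natAbs ≤ l := by unfold nm at hz; omega
  have hz2 : z.2.natAbs ≤ l := by unfold nm at hz; omega
  have h2 := XY.C_supermul hb.le (z.1, 0) (0, z.2)
  have e : (z.1, (0 : ℤ)) + (0, z.2) = z := by ext <;> simp
  rw [e] at h2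
  refine le_trans ?_ h2
  have e2 : C b ((0 : ℤ), z.2) = C b (z.2, 0) := XY.C_swap hb.le (z.2, 0)
  rw [e2, C_axis_natAbs hb z.1, C_axis_natAbs hb z.2, pow_two (c1 ^ 3 * _)]
  exact mul_le_mul (axis_low hb hbB h0 hc1 h1 hl hphi hz1) (axis_low hb hbB h0 hc1 h1 hl hphi hz2)
    (by positivity) (XY.C_nonneg hb.le _)

theorem rM_le {b B : ℝ} (hb : 0 ≤ b) (hbB : b ≤ B) {l : ℕ} (hl : 1 ≤ l) :
    rM (2 * b * (l : ℝ) ^ 2) ≤ rM (2 * B) * (l : ℝ) ^ 8 := by
  have hB : 0 ≤ B := hb.trans hbB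
  have hl1 : (1 : ℝ) ≤ l := by exact_mod_cast hl
  obtain ⟨q, hq⟩ : ∃ q : ℝ, q = (l : ℝ) ^ 2 := ⟨_, rfl⟩
  have hq1 : 1 ≤ q := by rw [hq]; exact one_le_pow₀ hl1
  have hq8 : (l : ℝ) ^ 8 = q ^ 4 := by rw [hq]; ring
  rw [hq8, ← hq]
  have p1 : (1 : ℝ) ≤ q ^ 4 := one_le_pow₀ hq1
  have p2 : q ≤ q ^ 4 := by
    calc q = q ^ 1 := (pow_one q).symm
      _ ≤ q ^ 4 := pow_le_pow_right₀ hq1 (by norm_num)
  have p3 : q ^ 2 ≤ q ^ 4 := pow_le_pow_right₀ hq1 (by norm_num)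
  have p4 : q ^ 3 ≤ q ^ 4 := pow_le_pow_right₀ hq1 (by norm_num)
  have s1 : 2 * b * q ≤ 2 * B * q ^ 4 := by
    have : 2 * b ≤ 2 * B := by linarith
    exact mul_le_mul this p2 (by linarith) (by positivity)
  have s2 : (2 * b * q) ^ 2 ≤ (2 * B) ^ 2 * q ^ 4 := by
    rw [mul_pow (2 * b)]
    exact mul_le_mul (pow_le_pow_left₀ (by positivity) (by linarith) 2) p3 (by positivity)
      (by positivity)
  have s3 : (2 * b * q) ^ 3 ≤ (2 * B) ^ 3 * q ^ 4 := by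
    rw [mul_pow (2 * b)]
    exact mul_le_mul (pow_le_pow_left₀ (by positivity) (by linarith) 3) p4 (by positivity)
      (by positivity)
  have s4 : (2 * b * q) ^ 4 ≤ (2 * B) ^ 4 * q ^ 4 := by
    rw [mul_pow (2 * b)]
    exact mul_le_mul_of_nonneg_right (pow_le_pow_left₀ (by positivity) (by linarith) 4)
      (by positivity)
  unfold rM cS
  nlinarith only [p1, s1, s2, s3, s4]

/-- power law bound at the corners in infinite volume -/
theorem decay_cor {b : ℝ} (hb : 0 < b) {l : ℕ} (hl : 1 ≤ l) {U s S : ℝ} (hU0 : 0 ≤ U)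
    (hU : stiff l b ≤ U) (hSd : S = 2 * b * (l : ℝ) ^ 2) (hs : s = 2 - 2 * Real.pi * U)
    (x : ℤ × ℤ) (h1 : (l : ℤ) ∣ x.1) (h2 : (l : ℤ) ∣ x.2) (hx : x ≠ 0) :
    C b x ≤ ((Real.exp (U * 4600 + 2) * rM S ^ 2 * (4 : ℝ) ^ |s| +
        (2 * rM S + 4) ^ |s|) * (l : ℝ) ^ s) * (nm x : ℝ) ^ (-s) := by
  have h := ms_coarseQ hl hb.le hU0 hU hSd hs
  have hl0 : (0 : ℝ) < l := by exact_mod_cast hl
  have hlz : (0 : ℤ) < l := by exact_mod_cast hl
  generalize (Real.exp (U * 4600 + 2) * rM S ^ 2 * (4 : ℝ) ^ |s| + (2 * rM S + 4) ^ |s|) = K at *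
  obtain ⟨z1, hz1⟩ := h1
  obtain ⟨z2, hz2⟩ := h2
  have hxz : x = cor l (z1, z2) := by
    unfold cor
    ext
    · exact hz1
    · exact hz2
  have hz0 : ((z1, z2) : ℤ × ℤ) ≠ 0 := by
    intro h0
    apply hx
    rw [hxz, h0]
    unfold cor
    ext <;> simp
  apply XY.C_le_of_corr_le hb.le
  intro R hR
  have h3 := h R (z1, z2) hz0 (hxz ▸ hR)
  rw [← hxz] at h3
  refine h3.trans (le_of_eq ?_)
  have h4 : (nm x : ℝ) = l * ((max |z1| |z2| : ℤ) : ℝ) := by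
    rw [XY.nm_cast, hz1, hz2]
    push_cast
    rw [abs_mul, abs_mul, abs_of_pos hl0, mul_max_of_nonneg _ _ hl0.le]
  rw [h4]
  have h5 : (0 : ℝ) ≤ ((max |z1| |z2| : ℤ) : ℝ) := by
    exact_mod_cast le_max_of_le_left (abs_nonneg z1)
  rw [Real.mul_rpow hl0.le h5, mul_assoc, ← mul_assoc ((l : ℝ) ^ s), ← Real.rpow_add hl0]
  simp only [Int.cast_max, Int.cast_abs, add_neg_cancel, Real.rpow_zero, one_mul]

/-- all the constants of the decay, in terms of a power of `l` -/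
theorem decay_poly {b0 B : ℝ} (h0 : 0 < b0) (hB : b0 ≤ B) : ∃ A : ℝ, 1 ≤ A ∧ ∀ b : ℝ, b0 ≤ b → b ≤ B →
    ∀ l : ℕ, 1 ≤ l → (∀ n : ℕ, 1 ≤ n → n ≤ l → 1 / 2 < XY.phi b n) → ∀ U s : ℝ, 0 ≤ U →
    U ≤ 1 / (2 * Real.pi) → stiff l b ≤ U → s = 2 - 2 * Real.pi * U →
    ∀ x : ℤ × ℤ, x ≠ 0 → C b x ≤ (A * (l : ℝ) ^ 22) * (nm x : ℝ) ^ (-s) := by
  have hpi := Real.pi_pos
  have hpi3 := Real.pi_gt_three
  have hB0 : 0 < B := lt_of_lt_of_le h0 hB
  obtain ⟨c1, hc1⟩ : ∃ c1, c1 = C b0 (1, 0) := ⟨_, rfl⟩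
  have hc10 : 0 < c1 := by rw [hc1]; exact XY.C_e1_pos h0
  have hc11 : c1 ≤ 1 := by rw [hc1]; exact XY.C_le_one _ _
  obtain ⟨W, hW⟩ : ∃ W, W = rM (2 * B) := ⟨_, rfl⟩
  have hW9 : 9 ≤ W := by rw [hW]; exact nine_le_rM (by positivity)
  obtain ⟨A1, hA1⟩ : ∃ A1, A1 = Real.exp 4602 * 16 * W ^ 2 + 9 * W ^ 2 := ⟨_, rfl⟩
  have hA10 : 0 < A1 := by rw [hA1]; positivity
  obtain ⟨A2, hA2⟩ : ∃ A2, A2 = A1 * 4 * ((96 * (B + 1)) ^ 4 / c1 ^ 6) + 4 := ⟨_, rfl⟩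
  refine ⟨A2, ?_, ?_⟩
  · have : 0 ≤ A1 * 4 * ((96 * (B + 1)) ^ 4 / c1 ^ 6) := by positivity
    rw [hA2]; linarith
  intro b hb1 hb2 l hl hphi U s hU0 hU1 hU hs x hx
  have hb : 0 < b := lt_of_lt_of_le h0 hb1
  have hl1 : (1 : ℝ) ≤ l := by exact_mod_cast hl
  have hl0 : (0 : ℝ) < l := by linarith
  obtain ⟨S, hS⟩ : ∃ S, S = 2 * b * (l : ℝ) ^ 2 := ⟨_, rfl⟩
  have hS0 : 0 ≤ S := by rw [hS]; positivity
  have hU2 : 2 * Real.pi * U ≤ 1 := by
    rw [le_div_iff₀ (by positivity)] at hU1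
    linarith
  have hU1' : U ≤ 1 := by
    refine hU1.trans ?_
    rw [div_le_one (by positivity)]
    linarith
  have hs1 : 1 ≤ s := by rw [hs]; linarith
  have hs2 : s ≤ 2 := by
    have : 0 ≤ 2 * Real.pi * U := by positivity
    rw [hs]; linarith
  have hsabs : |s| = s := abs_of_nonneg (by linarith)
  have hc1b : c1 ≤ C b (1, 0) := by rw [hc1]; exact XY.C_mono_b h0.le hb1 _
  have hcor := decay_cor hb hl hU0 hU hS hs
  obtain ⟨K1, hK1⟩ : ∃ K1, K1 = (Real.exp (U * 4600 + 2) * rM S ^ 2 * (4 : ℝ) ^ |s| +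
        (2 * rM S + 4) ^ |s|) * (l : ℝ) ^ s := ⟨_, rfl⟩
  rw [← hK1] at hcor
  have hr9 := nine_le_rM hS0
  have hrW : rM S ≤ W * (l : ℝ) ^ 8 := by rw [hS, hW]; exact rM_le hb.le hb2 hl
  have hK1pos : 0 < K1 := by rw [hK1]; positivity
  have h4s : (4 : ℝ) ^ s ≤ 16 := by
    calc (4 : ℝ) ^ s ≤ (4 : ℝ) ^ (2 : ℝ) := Real.rpow_le_rpow_of_exponent_le (by norm_num) hs2
      _ = 16 := by norm_num
  have hls : (l : ℝ) ^ s ≤ (l : ℝ) ^ 2 := by
    calc (l : ℝ) ^ s ≤ (l : ℝ) ^ (2 : ℝ) := Real.rpow_le_rpow_of_exponent_le hl1 hs2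
      _ = (l : ℝ) ^ 2 := by norm_cast
  have hK1le : K1 ≤ A1 * (l : ℝ) ^ 18 := by
    have e1 : Real.exp (U * 4600 + 2) ≤ Real.exp 4602 := Real.exp_le_exp.2 (by linarith)
    have e2 : rM S ^ 2 ≤ W ^ 2 * (l : ℝ) ^ 16 := by
      calc rM S ^ 2 ≤ (W * (l : ℝ) ^ 8) ^ 2 := pow_le_pow_left₀ (by linarith) hrW 2
        _ = W ^ 2 * (l : ℝ) ^ 16 := by ring
    have e3 : (2 * rM S + 4) ^ s ≤ 9 * (W ^ 2 * (l : ℝ) ^ 16) := by
      calc (2 * rM S + 4) ^ s ≤ (2 * rM S + 4) ^ (2 : ℝ) :=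
            Real.rpow_le_rpow_of_exponent_le (by linarith) hs2
        _ = (2 * rM S + 4) ^ 2 := by norm_cast
        _ ≤ (3 * rM S) ^ 2 := pow_le_pow_left₀ (by linarith) (by linarith) 2
        _ = 9 * rM S ^ 2 := by ring
        _ ≤ _ := mul_le_mul_of_nonneg_left e2 (by norm_num)
    have e4 : Real.exp (U * 4600 + 2) * rM S ^ 2 * (4 : ℝ) ^ s ≤
        Real.exp 4602 * (W ^ 2 * (l : ℝ) ^ 16) * 16 :=
      mul_le_mul (mul_le_mul e1 e2 (by positivity) (Real.exp_pos _).le) h4s (by positivity)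
        (by positivity)
    rw [hK1, hsabs]
    calc (Real.exp (U * 4600 + 2) * rM S ^ 2 * (4 : ℝ) ^ s + (2 * rM S + 4) ^ s) * (l : ℝ) ^ s
        ≤ (Real.exp 4602 * (W ^ 2 * (l : ℝ) ^ 16) * 16 + 9 * (W ^ 2 * (l : ℝ) ^ 16)) *
          (l : ℝ) ^ 2 := mul_le_mul (add_le_add e4 e3) hls (by positivity) (by positivity)
      _ = A1 * (l : ℝ) ^ 18 := by rw [hA1]; ring
  obtain ⟨c, hc⟩ : ∃ c, c = (c1 ^ 3 * (1 / (96 * (B + 1) * (l : ℝ))) ^ 2) ^ 2 := ⟨_, rfl⟩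
  have hc0 : 0 < c := by rw [hc]; positivity
  have hbox : ∀ z ∈ box l, c ≤ C b z := by
    intro z hz
    rw [hc]
    exact box_low hb hb2 hc10 hc11 hc1b hl hphi hz
  have hall := decay_allQ hb hl hK1pos (by linarith : 0 ≤ s) hc0 hbox hcor x hx
  refine hall.trans ?_
  have hn0 : (0 : ℝ) ≤ nm x := Nat.cast_nonneg _
  refine mul_le_mul_of_nonneg_right ?_ (Real.rpow_nonneg hn0 _)
  have e5 : 1 / c = (96 * (B + 1)) ^ 4 / c1 ^ 6 * (l : ℝ) ^ 4 := by
    rw [hc]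
    field_simp
  have e6 : K1 * 2 ^ s / c ≤ A1 * (l : ℝ) ^ 18 * 4 * ((96 * (B + 1)) ^ 4 / c1 ^ 6 * (l : ℝ) ^ 4) := by
    rw [← e5, mul_one_div]
    refine div_le_div_of_nonneg_right ?_ hc0.le
    have e7 : (2 : ℝ) ^ s ≤ 4 := by
      calc (2 : ℝ) ^ s ≤ (2 : ℝ) ^ (2 : ℝ) := Real.rpow_le_rpow_of_exponent_le (by norm_num) hs2
        _ = 4 := by norm_num
    exact mul_le_mul hK1le e7 (by positivity) (by positivity)
  have e8 : (2 * (l : ℝ)) ^ s ≤ 4 * (l : ℝ) ^ 22 := by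
    calc (2 * (l : ℝ)) ^ s ≤ (2 * (l : ℝ)) ^ (2 : ℝ) :=
          Real.rpow_le_rpow_of_exponent_le (by linarith) hs2
      _ = 4 * (l : ℝ) ^ 2 := by
          rw [Real.rpow_two]; ring
      _ ≤ 4 * (l : ℝ) ^ 22 := by
          have := pow_le_pow_right₀ hl1 (show 2 ≤ 22 by norm_num)
          linarith
  calc K1 * 2 ^ s / c + (2 * (l : ℝ)) ^ s
      ≤ A1 * (l : ℝ) ^ 18 * 4 * ((96 * (B + 1)) ^ 4 / c1 ^ 6 * (l : ℝ) ^ 4) + 4 * (l : ℝ) ^ 22 :=
        add_le_add e6 e8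
    _ = A2 * (l : ℝ) ^ 22 := by rw [hA2]; ring

/-- The end game. -/
theorem endQ (b0 B c : ℝ) (h0 : 0 < b0) (hc : 0 < c) : ∃ (A : ℝ) (p : ℕ), 1 ≤ A ∧
    ∀ b : ℝ, b0 ≤ b → b ≤ B → ∀ l : ℕ, 1 ≤ l → stiff l b ≤ 1 / (2 * Real.pi) - c →
      0 < mass b ∧ corrLength b ≤ A * (l : ℝ) ^ p := by
  have hpi := Real.pi_pos
  by_cases hB : b0 ≤ B
  swap
  · exact ⟨1, 0, le_rfl, fun b h1 h2 => absurd (h1.trans h2) hB⟩
  have hB0 : 0 < B := lt_of_lt_of_le h0 hB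
  obtain ⟨A2, hA2, hdec⟩ := decay_poly h0 hB
  obtain ⟨a, ha⟩ : ∃ a, a = 2 * Real.pi * c := ⟨_, rfl⟩
  have ha0 : 0 < a := by rw [ha]; positivity
  obtain ⟨D, hD⟩ : ∃ D, D = 96 * (B + 1) * A2 := ⟨_, rfl⟩
  have hD1 : 1 ≤ D := by rw [hD]; nlinarith
  have hD0 : 0 < D := by linarith
  obtain ⟨p, hp⟩ : ∃ p : ℕ, p = ⌈22 / a⌉₊ + 1 := ⟨_, rfl⟩
  have hDa : 0 < D ^ (1 / a) := Real.rpow_pos_of_pos hD0 _
  refine ⟨2 * D ^ (1 / a) + 4, p, by linarith, ?_⟩
  intro b hb1 hb2 l hl hst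
  have hb : 0 < b := lt_of_lt_of_le h0 hb1
  have hl1 : (1 : ℝ) ≤ l := by exact_mod_cast hl
  have hl0 : (0 : ℝ) < l := by linarith
  have hlp : (l : ℝ) ≤ (l : ℝ) ^ p := by
    calc (l : ℝ) = (l : ℝ) ^ 1 := (pow_one _).symm
      _ ≤ (l : ℝ) ^ p := pow_le_pow_right₀ hl1 (by omega)
  have hlp0 : 0 < (l : ℝ) ^ p := by positivity
  have key : ∀ n : ℕ, XY.phi b n ≤ 1 / 2 → 0 < mass b ∧ corrLength b ≤ 2 * ((n : ℝ) + 1) := by
    intro n hn
    have h1 := mass_ge_of_phi hb hn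
    have h2 : (0 : ℝ) < 1 / (2 * ((n : ℝ) + 1)) := by positivity
    refine ⟨lt_of_lt_of_le h2 h1, ?_⟩
    unfold corrLength
    calc 1 / mass b ≤ 1 / (1 / (2 * ((n : ℝ) + 1))) := one_div_le_one_div_of_le h2 h1
      _ = 2 * ((n : ℝ) + 1) := one_div_one_div _
  by_cases hphi : ∀ n : ℕ, 1 ≤ n → n ≤ l → 1 / 2 < XY.phi b n
  · obtain ⟨U, hU⟩ : ∃ U, U = 1 / (2 * Real.pi) - c := ⟨_, rfl⟩
    have hU0 : 0 ≤ U := by
      have := UJ.stiff_nonneg' hb.le hl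
      rw [hU]; linarith
    have hs : (1 + a : ℝ) = 2 - 2 * Real.pi * U := by
      rw [hU, ha]
      field_simp
      ring
    have hd := hdec b hb1 hb2 l hl hphi U (1 + a) hU0 (by rw [hU]; linarith) (by rw [hU]; exact hst) hs
    obtain ⟨n, hn⟩ : ∃ n : ℕ, n = ⌈(D * (l : ℝ) ^ 22) ^ (1 / a)⌉₊ := ⟨_, rfl⟩
    have hDl : 1 ≤ D * (l : ℝ) ^ 22 := by
      have := one_le_pow₀ hl1 (n := 22)
      nlinarith
    have hQ1 : 1 ≤ (D * (l : ℝ) ^ 22) ^ (1 / a) := Real.one_le_rpow hDl (by positivity)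
    have hn1 : 1 ≤ n := by
      rw [hn]
      exact Nat.one_le_iff_ne_zero.2 (by
        intro h
        rw [Nat.ceil_eq_zero] at h
        linarith)
    have hnge : (D * (l : ℝ) ^ 22) ^ (1 / a) ≤ n := by rw [hn]; exact Nat.le_ceil _
    have hnle : (n : ℝ) ≤ (D * (l : ℝ) ^ 22) ^ (1 / a) + 1 := by
      rw [hn]
      exact (Nat.ceil_lt_add_one (by linarith)).le
    have hn0 : (0 : ℝ) < n := by exact_mod_cast hn1
    have hna : D * (l : ℝ) ^ 22 ≤ (n : ℝ) ^ a := by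
      calc D * (l : ℝ) ^ 22 = ((D * (l : ℝ) ^ 22) ^ (1 / a)) ^ a := by
            rw [← Real.rpow_mul (by linarith), one_div_mul_cancel ha0.ne', Real.rpow_one]
        _ ≤ (n : ℝ) ^ a := Real.rpow_le_rpow (by linarith) hnge ha0.le
    have hD' : 0 ≤ (A2 * (l : ℝ) ^ 22) * (n : ℝ) ^ (-(1 + a)) := by
      have : 0 ≤ A2 := by linarith
      positivity
    have hphin : XY.phi b n ≤ 1 / 2 := by
      have h1 := phi_le_sup hb hn1 hD' (fun u hu1 _ => by
        have hu0 : u ≠ 0 := by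
          rintro rfl
          rw [XY.nm_zero] at hu1
          omega
        refine (hd u hu0).trans ?_
        refine mul_le_mul_of_nonneg_left ?_ (by
          have : 0 ≤ A2 := by linarith
          positivity)
        exact Real.rpow_le_rpow_of_nonpos hn0 (by exact_mod_cast hu1) (by linarith))
      refine h1.trans ?_
      have h2 : (n : ℝ) * (n : ℝ) ^ (-(1 + a)) = 1 / (n : ℝ) ^ a := by
        rw [show -(1 + a) = -1 + -a by ring, Real.rpow_add hn0, Real.rpow_neg_one,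
          Real.rpow_neg hn0.le]
        field_simp
      have h3 : 48 * b * n * ((A2 * (l : ℝ) ^ 22) * (n : ℝ) ^ (-(1 + a))) =
          48 * b * (A2 * (l : ℝ) ^ 22) * (1 / (n : ℝ) ^ a) := by
        rw [← h2]; ring
      rw [h3, mul_one_div, div_le_div_iff₀ (by positivity) (by norm_num)]
      have h4 : 48 * b * (A2 * (l : ℝ) ^ 22) ≤ 48 * (B + 1) * (A2 * (l : ℝ) ^ 22) := by
        have h5 : 0 ≤ A2 * (l : ℝ) ^ 22 := by
          have : 0 ≤ A2 := by linarith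
          positivity
        have h6 : 48 * b ≤ 48 * (B + 1) := by linarith
        exact mul_le_mul_of_nonneg_right h6 h5
      have h7 : 48 * (B + 1) * (A2 * (l : ℝ) ^ 22) * 2 = D * (l : ℝ) ^ 22 := by rw [hD]; ring
      linarith
    obtain ⟨k1, k2⟩ := key n hphin
    refine ⟨k1, k2.trans ?_⟩
    have h5 : (D * (l : ℝ) ^ 22) ^ (1 / a) ≤ D ^ (1 / a) * (l : ℝ) ^ p := by
      rw [Real.mul_rpow hD0.le (by positivity)]
      refine mul_le_mul_of_nonneg_left ?_ hDa.le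
      rw [← Real.rpow_natCast (l : ℝ) 22, ← Real.rpow_mul hl0.le, ← Real.rpow_natCast (l : ℝ) p]
      apply Real.rpow_le_rpow_of_exponent_le hl1
      have h6 : (22 : ℝ) / a ≤ ⌈22 / a⌉₊ := Nat.le_ceil _
      rw [hp]
      push_cast
      have h7 : (22 : ℝ) * (1 / a) = 22 / a := by ring
      rw [h7]
      linarith
    have h6 : (1 : ℝ) ≤ (l : ℝ) ^ p := one_le_pow₀ hl1
    linarith
  · push Not at hphi
    obtain ⟨n, hn1, hn2, hn3⟩ := hphi
    obtain ⟨k1, k2⟩ := key n hn3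
    refine ⟨k1, k2.trans ?_⟩
    have h5 : (n : ℝ) ≤ l := by exact_mod_cast hn2
    have h6 : (1 : ℝ) ≤ (l : ℝ) ^ p := one_le_pow₀ hl1
    have h7 : 0 ≤ 2 * D ^ (1 / a) * (l : ℝ) ^ p := by positivity
    nlinarith

end NC.H731

end Vale.Agent.P159
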