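import Vale.Agent.P159.Bdl.B8

set_option linter.all false

/-!
The expansion of the ratio of partition functions of a block, with constants which depend on the
inverse temperature but not on the side of the block.
-/

open MeasureTheory Filter Topology
open scoped BigOperators

namespace Vale.Agent.P159

namespace NC.H731

/-! ### Elementary inequalities -/

theorem quart_le_exp (u : ℝ) : u ^ 4 ≤ 24 * (Real.exp u + Real.exp (-u)) := by
  have h : ∀ v : ℝ, 0 ≤ v → v ^ 4 ≤ 24 * Real.exp v := by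
    intro v hv
    have h1 := Real.sum_le_exp_of_nonneg hv 5
    simp only [Finset.sum_range_succ, Finset.sum_range_zero, Nat.factorial] at h1
    norm_num at h1
    have h2 : 0 ≤ v ^ 2 := sq_nonneg v
    have h3 : 0 ≤ v ^ 3 := by positivity
    linarith
  rcases le_total 0 u with hu | hu
  · have := h u hu
    have := Real.exp_pos (-u)
    linarith
  · have h1 := h (-u) (by linarith)
    have h2 := Real.exp_pos u
    have h3 : (-u) ^ 4 = u ^ 4 := by ring
    rw [h3] at h1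
    linarith

theorem cos_le_quart (x : ℝ) : Real.cos x ≤ 1 - x ^ 2 / 2 + x ^ 4 / 2 := by
  by_cases hx : |x| ≤ 1
  · have h1 := (abs_le.1 (Real.cos_bound hx)).2
    have h2 : |x| ^ 4 = x ^ 4 := by
      have : |x| ^ 4 = (|x| ^ 2) ^ 2 := by ring
      rw [this, sq_abs]; ring
    rw [h2] at h1
    have h3 : 0 ≤ x ^ 4 := by positivity
    linarith
  · push Not at hx
    have h1 := Real.cos_le_one x
    have h2 : 1 < x ^ 2 := by
      rw [← sq_abs]; nlinarith
    nlinarith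

/-- pointwise bound of the integrand of the ratio -/
theorem ptU {V X v : ℝ} (hV : |V| ≤ v) (hv : v ≤ 1) :
    Real.exp V * Real.cos X ≤ (1 + v ^ 2) + V - X ^ 2 / 2 + X ^ 4 / 2 + v / 2 * X ^ 2 ∧
    1 - v - X ^ 2 * (3 / 2) ≤ Real.exp V * Real.cos X := by
  have hV1 : |V| ≤ 1 := hV.trans hv
  have hv0 : 0 ≤ v := (abs_nonneg V).trans hV
  have h1 := Real.abs_exp_sub_one_sub_id_le hV1
  have h2 := cos_le_quart X
  have h3 := Real.one_sub_sq_div_two_le_cos (x := X)
  have h4 := Real.cos_le_one X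
  have h5 := Real.neg_one_le_cos X
  have hV2 : V ^ 2 ≤ v ^ 2 := by
    rw [← sq_abs V]; exact pow_le_pow_left₀ (abs_nonneg _) hV 2
  obtain ⟨V1, V2⟩ := abs_le.1 hV
  constructor
  · have t1 : (Real.exp V - 1 - V) * Real.cos X ≤ v ^ 2 := by
      calc (Real.exp V - 1 - V) * Real.cos X ≤ |(Real.exp V - 1 - V) * Real.cos X| := le_abs_self _
        _ = |Real.exp V - 1 - V| * |Real.cos X| := abs_mul _ _
        _ ≤ V ^ 2 * 1 := mul_le_mul h1 (Real.abs_cos_le_one X) (abs_nonneg _) (sq_nonneg _)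
        _ ≤ v ^ 2 := by linarith
    have t2 : V * (Real.cos X - 1) ≤ v / 2 * X ^ 2 := by
      have h6 : V * (Real.cos X - 1) ≤ v * (1 - Real.cos X) := by nlinarith
      have h7 : v * (1 - Real.cos X) ≤ v * (X ^ 2 / 2) :=
        mul_le_mul_of_nonneg_left (by linarith) hv0
      linarith
    have hid : Real.exp V * Real.cos X = (Real.exp V - 1 - V) * Real.cos X + Real.cos X + V
      + V * (Real.cos X - 1) := by ring
    rw [hid]
    linarith
  · have e1 : Real.exp V ≤ 3 := by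
      have h6 : Real.exp V ≤ Real.exp 1 := Real.exp_le_exp.2 (by linarith)
      have := Real.exp_one_lt_d9
      linarith
    have e2 : 1 - v ≤ Real.exp V := by
      have := Real.add_one_le_exp V
      linarith
    have e3 : Real.exp V * (1 - X ^ 2 / 2) ≤ Real.exp V * Real.cos X :=
      mul_le_mul_of_nonneg_left h3 (Real.exp_pos V).le
    have e4 : Real.exp V * (X ^ 2 / 2) ≤ 3 * (X ^ 2 / 2) :=
      mul_le_mul_of_nonneg_right e1 (by positivity)
    linarith

theorem sinh_abs_le {y : ℝ} (hy : |y| ≤ 1) : |Real.sinh y| ≤ 2 * |y| := by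
  have h1 := sinh_sub_bound hy
  have h2 : |y| ^ 3 ≤ |y| := by
    calc |y| ^ 3 = |y| * |y| ^ 2 := by ring
      _ ≤ |y| * 1 := mul_le_mul_of_nonneg_left (pow_le_one₀ (abs_nonneg _) hy) (abs_nonneg _)
      _ = |y| := mul_one _
  calc |Real.sinh y| = |(Real.sinh y - y) + y| := by ring_nf
    _ ≤ |Real.sinh y - y| + |y| := abs_add_le _ _
    _ ≤ 2 * |y| := by linarith

theorem cosh_sub_le {y : ℝ} (hy : |y| ≤ 1) : Real.cosh y - 1 ≤ 2 * y ^ 2 := by
  have h1 := (abs_le.1 (cosh_sub_bound hy)).2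
  have h2 : |y| ^ 4 ≤ y ^ 2 := by
    calc |y| ^ 4 = |y| ^ 2 * |y| ^ 2 := by ring
      _ ≤ |y| ^ 2 * 1 := mul_le_mul_of_nonneg_left (pow_le_one₀ (abs_nonneg _) hy) (by positivity)
      _ = y ^ 2 := by rw [mul_one, sq_abs]
  have h3 := sq_nonneg y
  linarith

section

variable {G : Type*} [AddCommGroup G] [TopologicalSpace G] [IsTopologicalAddGroup G]
  [CompactSpace G] [SecondCountableTopology G] [MeasurableSpace G] [BorelSpace G]
  (μ : Measure G) [μ.IsAddHaarMeasure] [IsProbabilityMeasure μ]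
  {κ : Type*} [Fintype κ] (J : κ → ℝ) (χ : κ → Chr G)

variable (h2 : ∀ g : G, ∃ h : G, h + h = g)

include h2 in
/-- the second order form is nonnegative -/
theorem Qform_nonneg (hJ : ∀ e, 0 ≤ J e) (a : κ → ℝ) : 0 ≤ Qform μ J χ a := by
  have h3 := UJ.lowerZ μ J χ h2 hJ a
  have h4 := UJ.Zr_le μ J χ h2 hJ a
  have h5 := UJ.Zr_pos μ J χ 0
  have h6 : Real.exp (-(UJ.QQ μ J χ 0 a a) / 2) ≤ 1 :=
    h3.trans (by rw [div_le_one h5]; exact h4)
  rw [Real.exp_le_one_iff, UJ.QQ_zero] at h6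
  linarith

theorem gibbs_sumc_le (f : κ → ℝ) (hf : ∀ e, 0 ≤ f e) :
    gibbs μ J χ (fun x => ∑ e, f e * (χ e).c x) ≤ ∑ e, f e := by
  rw [← gibbs_const μ J χ (∑ e, f e)]
  apply gibbs_mono μ J χ (cont_sumc χ _) continuous_const
  intro x
  exact Finset.sum_le_sum fun e _ => mul_le_of_le_one_right (hf e)
    ((le_abs_self _).trans ((χ e).abs_c_le x))

include h2 in
/-- second moment of a current -/
theorem gibbs_sq_le (hJ : ∀ e, 0 ≤ J e) (a : κ → ℝ) :
    gibbs μ J χ (fun x => (∑ e, J e * a e * (χ e).s x) ^ 2) ≤ ∑ e, J e * a e ^ 2 := by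
  have h3 := Qform_nonneg μ J χ h2 hJ a
  have h4 := gibbs_sumc_le μ J χ (fun e => J e * a e ^ 2)
    (fun e => mul_nonneg (hJ e) (sq_nonneg _))
  unfold Qform at h3
  linarith

theorem Qform_le_sum (hJ : ∀ e, 0 ≤ J e) (a : κ → ℝ) :
    Qform μ J χ a ≤ ∑ e, J e * a e ^ 2 := by
  have h4 := gibbs_sumc_le μ J χ (fun e => J e * a e ^ 2)
    (fun e => mul_nonneg (hJ e) (sq_nonneg _))
  have h5 : 0 ≤ gibbs μ J χ (fun x => (∑ e, J e * a e * (χ e).s x) ^ 2) := by
    rw [← gibbs_const μ J χ 0]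
    exact gibbs_mono μ J χ continuous_const ((cont_sums χ _).pow 2) fun x => sq_nonneg _
  unfold Qform
  linarith

include h2 in
/-- exponential moment of a current -/
theorem expmom (hJ : ∀ e, 0 ≤ J e) (a : κ → ℝ) (ha : ∀ e, |a e| ≤ 1) :
    gibbs μ J χ (fun x => Real.exp (∑ e, J e * a e * (χ e).s x)) ≤
      Real.exp (∑ e, J e * a e ^ 2) := by
  have hz := UJ.Zr_le μ J χ h2 hJ (fun e => -Real.arcsin (a e))
  have hw := weight_pos μ J χ
  have hsin : ∀ e, Real.sin (-Real.arcsin (a e)) = -a e := by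
    intro e
    obtain ⟨h3, h4⟩ := abs_le.1 (ha e)
    rw [Real.sin_neg, Real.sin_arcsin h3 h4]
  have hcos : ∀ e, Real.cos (-Real.arcsin (a e)) = Real.sqrt (1 - a e ^ 2) := by
    intro e
    rw [Real.cos_neg, Real.cos_arcsin]
  have hsq : ∀ e, 1 - a e ^ 2 ≤ Real.sqrt (1 - a e ^ 2) ∧ Real.sqrt (1 - a e ^ 2) ≤ 1 := by
    intro e
    have h3 : a e ^ 2 ≤ 1 := by rw [← sq_abs]; exact pow_le_one₀ (abs_nonneg _) (ha e)
    have h4 : 0 ≤ a e ^ 2 := sq_nonneg _
    constructor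
    · apply Real.le_sqrt_of_sq_le
      nlinarith
    · rw [Real.sqrt_le_one]
      linarith
  have h0 : UJ.Zr μ J χ 0 = ∫ x, Real.exp (∑ e, J e * (χ e).c x) ∂μ := by
    unfold UJ.Zr
    simp
  have hmain : Real.exp (-∑ e, J e * a e ^ 2) *
      ∫ x, Real.exp (∑ e, J e * a e * (χ e).s x) * Real.exp (∑ e, J e * (χ e).c x) ∂μ ≤
      UJ.Zr μ J χ (fun e => -Real.arcsin (a e)) := by
    rw [← integral_const_mul]
    unfold UJ.Zr
    refine integral_mono (cint ?_) (cint (UJ.Zr_cont_integrand J χ _)) fun x => ?_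
    · exact continuous_const.mul ((Real.continuous_exp.comp (cont_sums χ _)).mul
        (cont_weight J χ))
    · show Real.exp (-∑ e, J e * a e ^ 2) *
        (Real.exp (∑ e, J e * a e * (χ e).s x) * Real.exp (∑ e, J e * (χ e).c x)) ≤ _
      rw [← Real.exp_add, ← Real.exp_add]
      apply Real.exp_le_exp.2
      rw [← Finset.sum_neg_distrib, ← Finset.sum_add_distrib, ← Finset.sum_add_distrib]
      refine Finset.sum_le_sum fun e _ => ?_
      rw [hsin, hcos]
      obtain ⟨s1, s2⟩ := hsq e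
      have c1 := (abs_le.1 ((χ e).abs_c_le x)).2
      have c2 := (abs_le.1 ((χ e).abs_c_le x)).1
      have h5 : (χ e).c x * (1 - Real.sqrt (1 - a e ^ 2)) ≤ a e ^ 2 := by
        calc (χ e).c x * (1 - Real.sqrt (1 - a e ^ 2)) ≤ 1 * (1 - Real.sqrt (1 - a e ^ 2)) :=
              mul_le_mul_of_nonneg_right c1 (by linarith)
          _ ≤ a e ^ 2 := by linarith
      have h6 := mul_le_mul_of_nonneg_left h5 (hJ e)
      linarith
  have h3 : Real.exp (-∑ e, J e * a e ^ 2) *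
      (∫ x, Real.exp (∑ e, J e * a e * (χ e).s x) * Real.exp (∑ e, J e * (χ e).c x) ∂μ) ≤
      ∫ x, Real.exp (∑ e, J e * (χ e).c x) ∂μ := by
    rw [← h0]; exact hmain.trans hz
  unfold gibbs
  rw [div_le_iff₀ hw]
  rw [Real.exp_neg, inv_mul_le_iff₀ (Real.exp_pos _)] at h3
  exact h3

include h2 in
/-- fourth moment of a current -/
theorem gibbs_quart_le (hJ : ∀ e, 0 ≤ J e) (a : κ → ℝ) {m β : ℝ} (hm : 0 < m)
    (ha : ∀ e, |a e| ≤ m) (hs : ∑ e, J e * a e ^ 2 ≤ β * m ^ 2) :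
    gibbs μ J χ (fun x => (∑ e, J e * a e * (χ e).s x) ^ 4) ≤ 48 * Real.exp β * m ^ 4 := by
  have key : ∀ ε : ℝ, ε ^ 2 = 1 → gibbs μ J χ (fun x => Real.exp (ε *
      ((∑ e, J e * a e * (χ e).s x) / m))) ≤ Real.exp β := by
    intro ε hε
    have habs : |ε| = 1 := by
      have : |ε| ^ 2 = 1 := by rw [sq_abs]; exact hε
      have h0 := abs_nonneg ε
      nlinarith
    have h := expmom μ J χ h2 hJ (fun e => ε * (a e / m)) (fun e => by
      rw [abs_mul, habs, one_mul, abs_div, abs_of_pos hm, div_le_one hm]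
      exact ha e)
    have e1 : ∀ x, ε * ((∑ e, J e * a e * (χ e).s x) / m) =
        ∑ e, J e * (ε * (a e / m)) * (χ e).s x := by
      intro x
      rw [Finset.sum_div, Finset.mul_sum]
      exact Finset.sum_congr rfl fun e _ => by ring
    simp_rw [e1]
    refine h.trans (Real.exp_le_exp.2 ?_)
    have e2 : ∑ e, J e * (ε * (a e / m)) ^ 2 = (∑ e, J e * a e ^ 2) / m ^ 2 := by
      rw [Finset.sum_div]
      refine Finset.sum_congr rfl fun e _ => ?_
      rw [mul_pow, hε, div_pow]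
      ring
    rw [e2, div_le_iff₀ (by positivity)]
    exact hs
  have k1 := key 1 (by norm_num)
  have k2 := key (-1) (by norm_num)
  have cX : Continuous (fun x => ∑ e, J e * a e * (χ e).s x) := cont_sums χ _
  have c1 : Continuous (fun x => Real.exp (1 * ((∑ e, J e * a e * (χ e).s x) / m))) :=
    Real.continuous_exp.comp (continuous_const.mul (cX.div_const m))
  have c2 : Continuous (fun x => Real.exp (-1 * ((∑ e, J e * a e * (χ e).s x) / m))) :=
    Real.continuous_exp.comp (continuous_const.mul (cX.div_const m))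
  have h3 : gibbs μ J χ (fun x => (∑ e, J e * a e * (χ e).s x) ^ 4) ≤
      gibbs μ J χ (fun x => 0 + (24 * m ^ 4) *
        Real.exp (1 * ((∑ e, J e * a e * (χ e).s x) / m)) +
        (24 * m ^ 4) * Real.exp (-1 * ((∑ e, J e * a e * (χ e).s x) / m))) := by
    have cX4 : Continuous (fun x => (∑ e, J e * a e * (χ e).s x) ^ 4) := cX.pow 4
    apply gibbs_mono μ J χ cX4
    · exact (continuous_const.add (continuous_const.mul c1)).add (continuous_const.mul c2)
    intro x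
    have h4 := quart_le_exp ((∑ e, J e * a e * (χ e).s x) / m)
    rw [div_pow, div_le_iff₀ (by positivity)] at h4
    rw [one_mul, neg_one_mul]
    linarith
  rw [gibbs_lin μ J χ 0 (24 * m ^ 4) (24 * m ^ 4) c1 c2] at h3
  have hm4 : 0 ≤ 24 * m ^ 4 := by positivity
  have h5 := mul_le_mul_of_nonneg_left k1 hm4
  have h6 := mul_le_mul_of_nonneg_left k2 hm4
  linarith

theorem abs_rho_eq (y : κ → ℝ) (D : ℝ)
    (h0 : 0 ≤ gibbs μ J χ (fun x => Real.exp (∑ e, J e * (Real.cosh (y e) - 1) * (χ e).c x) *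
      Real.cos (∑ e, J e * Real.sinh (y e) * (χ e).s x)))
    (hD : gibbs μ J χ (fun x => Real.exp (∑ e, J e * (Real.cosh (y e) - 1) * (χ e).c x) *
      Real.cos (∑ e, J e * Real.sinh (y e) * (χ e).s x)) ≤ D) :
    rho μ J χ y ≤ D := by
  have hw := weight_pos μ J χ
  have h : rho μ J χ y = gibbs μ J χ (fun x =>
      Real.exp (∑ e, J e * (Real.cosh (y e) - 1) * (χ e).c x) *
      Real.cos (∑ e, J e * Real.sinh (y e) * (χ e).s x)) := by
    unfold rho gibbs
    congr 1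
    · rw [ZZ_imag, Complex.norm_real, Real.norm_of_nonneg]
      unfold gibbs at h0
      have h3 := mul_nonneg h0 hw.le
      rwa [div_mul_cancel₀ _ hw.ne'] at h3
    · have h := ZZ_real μ J χ (fun _ => 0)
      have h1 : (fun e : κ => (((fun _ => 0 : κ → ℝ) e : ℝ) : ℂ)) = 0 := by ext e; simp
      rw [h1] at h
      rw [h]
      simp only [Real.cos_zero, mul_one, Real.sin_zero, mul_zero, sub_zero]
  rw [h]
  exact hD

/-- constant of the uniform expansion -/
noncomputable def cU (β : ℝ) : ℝ := 2 * β + 8 * β ^ 2 + 384 * Real.exp β + β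

include h2 in
/-- second order expansion with a constant which only depends on `β` -/
theorem rho_secondU (hJ : ∀ e, 0 ≤ J e) (y : κ → ℝ) {Y β : ℝ} (hY0 : 0 < Y) (hY1 : Y ≤ 1)
    (hβ : 0 ≤ β) (hβY : 48 * β * Y ^ 2 ≤ 1) (hy : ∀ e, |y e| ≤ Y)
    (s2 : ∑ e, J e * y e ^ 2 ≤ β * Y ^ 2) (s4 : ∑ e, J e * |y e| ^ 4 ≤ β * Y ^ 4)
    (s6 : ∑ e, J e * (|y e| ^ 3) ^ 2 ≤ β * Y ^ 6) :
    rho μ J χ y ≤ 1 + Qform μ J χ y / 2 +
      (2 * β + 8 * β ^ 2 + 384 * Real.exp β) * Y ^ 4 := by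
  have hy1 : ∀ e, |y e| ≤ 1 := fun e => (hy e).trans hY1
  obtain ⟨v, hv⟩ : ∃ v, v = 2 * β * Y ^ 2 := ⟨_, rfl⟩
  have hv0 : 0 ≤ v := by rw [hv]; positivity
  have hv1 : v ≤ 1 / 24 := by rw [hv]; linarith
  have cV : Continuous (fun x => ∑ e, J e * (Real.cosh (y e) - 1) * (χ e).c x) := cont_sumc χ _
  have cV2 : Continuous (fun x => ∑ e, J e * y e ^ 2 * (χ e).c x) := cont_sumc χ _
  have cX : Continuous (fun x => ∑ e, J e * Real.sinh (y e) * (χ e).s x) := cont_sums χ _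
  have cX1 : Continuous (fun x => ∑ e, J e * y e * (χ e).s x) := cont_sums χ _
  have cX3 : Continuous (fun x => ∑ e, J e * (Real.sinh (y e) - y e) * (χ e).s x) :=
    cont_sums χ _
  have hVv : ∀ x, |∑ e, J e * (Real.cosh (y e) - 1) * (χ e).c x| ≤ v := by
    intro x
    refine (abs_sumc_le χ _ x).trans ?_
    have h3 : ∑ e, |J e * (Real.cosh (y e) - 1)| ≤ ∑ e, 2 * (J e * y e ^ 2) := by
      refine Finset.sum_le_sum fun e _ => ?_
      have h4 := cosh_sub_le (hy1 e)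
      have h5 := Real.one_le_cosh (y e)
      rw [abs_of_nonneg (mul_nonneg (hJ e) (by linarith))]
      have h6 := mul_le_mul_of_nonneg_left h4 (hJ e)
      linarith
    rw [← Finset.mul_sum] at h3
    rw [hv]
    linarith
  have hVV2 : ∀ x, ∑ e, J e * (Real.cosh (y e) - 1) * (χ e).c x ≤
      (∑ e, J e * y e ^ 2 * (χ e).c x) / 2 + β * Y ^ 4 := by
    intro x
    have h3 : |∑ e, (J e * (Real.cosh (y e) - 1 - y e ^ 2 / 2)) * (χ e).c x| ≤ β * Y ^ 4 := by
      refine (abs_sumc_le χ _ x).trans (le_trans ?_ s4)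
      refine Finset.sum_le_sum fun e _ => ?_
      rw [abs_mul, abs_of_nonneg (hJ e)]
      exact mul_le_mul_of_nonneg_left (cosh_sub_bound (hy1 e)) (hJ e)
    have h4 : ∑ e, (J e * (Real.cosh (y e) - 1 - y e ^ 2 / 2)) * (χ e).c x =
        ∑ e, J e * (Real.cosh (y e) - 1) * (χ e).c x -
        (∑ e, J e * y e ^ 2 * (χ e).c x) / 2 := by
      rw [Finset.sum_div, ← Finset.sum_sub_distrib]
      exact Finset.sum_congr rfl fun e _ => by ring
    rw [h4] at h3
    linarith [(abs_le.1 h3).2]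
  -- moments
  have hsinh2 : ∑ e, J e * Real.sinh (y e) ^ 2 ≤ 4 * β * Y ^ 2 := by
    have h3 : ∑ e, J e * Real.sinh (y e) ^ 2 ≤ ∑ e, 4 * (J e * y e ^ 2) := by
      refine Finset.sum_le_sum fun e _ => ?_
      have h4 := pow_le_pow_left₀ (abs_nonneg _) (sinh_abs_le (hy1 e)) 2
      rw [sq_abs, mul_pow, sq_abs] at h4
      have h6 := mul_le_mul_of_nonneg_left h4 (hJ e)
      linarith
    rw [← Finset.mul_sum] at h3
    linarith
  have hX2 := (gibbs_sq_le μ J χ h2 hJ (fun e => Real.sinh (y e))).trans hsinh2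
  have hX12 := (gibbs_sq_le μ J χ h2 hJ y).trans s2
  have hX32 : gibbs μ J χ (fun x => (∑ e, J e * (Real.sinh (y e) - y e) * (χ e).s x) ^ 2) ≤
      β * Y ^ 6 := by
    refine (gibbs_sq_le μ J χ h2 hJ (fun e => Real.sinh (y e) - y e)).trans (le_trans ?_ s6)
    refine Finset.sum_le_sum fun e _ => ?_
    have h4 := pow_le_pow_left₀ (abs_nonneg _) (sinh_sub_bound (hy1 e)) 2
    rw [sq_abs] at h4
    exact mul_le_mul_of_nonneg_left h4 (hJ e)
  have hX4 : gibbs μ J χ (fun x => (∑ e, J e * Real.sinh (y e) * (χ e).s x) ^ 4) ≤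
      48 * Real.exp β * (2 * Y) ^ 4 := by
    apply gibbs_quart_le μ J χ h2 hJ (fun e => Real.sinh (y e)) (by positivity)
    · intro e
      exact (sinh_abs_le (hy1 e)).trans (by linarith [hy e])
    · refine hsinh2.trans (le_of_eq ?_)
      ring
  -- upper bound
  have hup : gibbs μ J χ (fun x => Real.exp (∑ e, J e * (Real.cosh (y e) - 1) * (χ e).c x) *
      Real.cos (∑ e, J e * Real.sinh (y e) * (χ e).s x)) ≤
      1 + Qform μ J χ y / 2 + (2 * β + 8 * β ^ 2 + 384 * Real.exp β) * Y ^ 4 := by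
    have h3 : gibbs μ J χ (fun x => Real.exp (∑ e, J e * (Real.cosh (y e) - 1) * (χ e).c x) *
      Real.cos (∑ e, J e * Real.sinh (y e) * (χ e).s x)) ≤
      gibbs μ J χ (fun x => ((1 + v ^ 2 + β * Y ^ 4) +
        (1 / 2) * (∑ e, J e * y e ^ 2 * (χ e).c x) +
        (-1 / 2 + Y ^ 2 / 2) * (∑ e, J e * y e * (χ e).s x) ^ 2 +
        (1 / (2 * Y ^ 2)) * (∑ e, J e * (Real.sinh (y e) - y e) * (χ e).s x) ^ 2) +
        (0 + (1 / 2) * (∑ e, J e * Real.sinh (y e) * (χ e).s x) ^ 4 +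
        (v / 2) * (∑ e, J e * Real.sinh (y e) * (χ e).s x) ^ 2)) := by
      apply gibbs_mono
      · exact (Real.continuous_exp.comp cV).mul (Real.continuous_cos.comp cX)
      · exact (((continuous_const.add (continuous_const.mul cV2)).add
          (continuous_const.mul (cX1.pow 2))).add (continuous_const.mul (cX3.pow 2))).add
          ((continuous_const.add (continuous_const.mul (cX.pow 4))).add
          (continuous_const.mul (cX.pow 2)))
      intro x
      have p1 := (ptU (X := ∑ e, J e * Real.sinh (y e) * (χ e).s x) (hVv x) (by linarith)).1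
      have p2 := hVV2 x
      have p3 : ∑ e, J e * Real.sinh (y e) * (χ e).s x = ∑ e, J e * y e * (χ e).s x +
          ∑ e, J e * (Real.sinh (y e) - y e) * (χ e).s x := by
        rw [← Finset.sum_add_distrib]
        exact Finset.sum_congr rfl fun e _ => by ring
      generalize hA : (∑ e, J e * Real.sinh (y e) * (χ e).s x) = A at *
      generalize (∑ e, J e * y e * (χ e).s x) = A1 at *
      generalize (∑ e, J e * (Real.sinh (y e) - y e) * (χ e).s x) = A3 at *
      have p4 : -(A ^ 2 / 2) ≤ (-1 / 2 + Y ^ 2 / 2) * A1 ^ 2 + (1 / (2 * Y ^ 2)) * A3 ^ 2 := by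
        rw [p3]
        have p5 : 0 ≤ (Y * A1 + A3 / Y) ^ 2 := sq_nonneg _
        have p6 : (Y * A1 + A3 / Y) ^ 2 = Y ^ 2 * A1 ^ 2 + 2 * (A1 * A3) + A3 ^ 2 / Y ^ 2 := by
          field_simp
          ring
        have p7 : (1 / (2 * Y ^ 2)) * A3 ^ 2 = (A3 ^ 2 / Y ^ 2) / 2 := by
          field_simp
        have p8 := sq_nonneg A3
        rw [p7]
        nlinarith
      linarith
    refine h3.trans ?_
    have d1 : Continuous (fun x => (∑ e, J e * y e * (χ e).s x) ^ 2) := cX1.pow 2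
    have d3 : Continuous (fun x => (∑ e, J e * (Real.sinh (y e) - y e) * (χ e).s x) ^ 2) :=
      cX3.pow 2
    have d4 : Continuous (fun x => (∑ e, J e * Real.sinh (y e) * (χ e).s x) ^ 4) := cX.pow 4
    have d2 : Continuous (fun x => (∑ e, J e * Real.sinh (y e) * (χ e).s x) ^ 2) := cX.pow 2
    have f1 : Continuous (fun x => (1 + v ^ 2 + β * Y ^ 4) +
        (1 / 2) * (∑ e, J e * y e ^ 2 * (χ e).c x) +
        (-1 / 2 + Y ^ 2 / 2) * (∑ e, J e * y e * (χ e).s x) ^ 2 +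
        (1 / (2 * Y ^ 2)) * (∑ e, J e * (Real.sinh (y e) - y e) * (χ e).s x) ^ 2) :=
      ((continuous_const.add (continuous_const.mul cV2)).add
          (continuous_const.mul d1)).add (continuous_const.mul d3)
    have f2 : Continuous (fun x => 0 + (1 / 2) * (∑ e, J e * Real.sinh (y e) * (χ e).s x) ^ 4 +
        (v / 2) * (∑ e, J e * Real.sinh (y e) * (χ e).s x) ^ 2) :=
      (continuous_const.add (continuous_const.mul d4)).add (continuous_const.mul d2)
    rw [gibbs_add μ J χ f1 f2, gibbs_lin3 μ J χ _ _ _ _ cV2 d1 d3,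
      gibbs_lin μ J χ _ _ _ d4 d2]
    unfold Qform
    generalize gibbs μ J χ (fun x => ∑ e, J e * y e ^ 2 * (χ e).c x) = g0 at *
    have q1 : (Y ^ 2 / 2) * gibbs μ J χ (fun x => (∑ e, J e * y e * (χ e).s x) ^ 2) ≤
        (Y ^ 2 / 2) * (β * Y ^ 2) := mul_le_mul_of_nonneg_left hX12 (by positivity)
    have q2 : (1 / (2 * Y ^ 2)) * gibbs μ J χ
        (fun x => (∑ e, J e * (Real.sinh (y e) - y e) * (χ e).s x) ^ 2) ≤
        (1 / (2 * Y ^ 2)) * (β * Y ^ 6) := mul_le_mul_of_nonneg_left hX32 (by positivity)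
    have q3 : (v / 2) * gibbs μ J χ
        (fun x => (∑ e, J e * Real.sinh (y e) * (χ e).s x) ^ 2) ≤ (v / 2) * (4 * β * Y ^ 2) :=
      mul_le_mul_of_nonneg_left hX2 (by positivity)
    have q4 : (1 / (2 * Y ^ 2)) * (β * Y ^ 6) = β * Y ^ 4 / 2 := by
      field_simp
    rw [q4] at q2
    have q5 : (Y ^ 2 / 2) * (β * Y ^ 2) = β * Y ^ 4 / 2 := by ring
    have q6 : (v / 2) * (4 * β * Y ^ 2) = 4 * β ^ 2 * Y ^ 4 := by rw [hv]; ring
    have q7 : v ^ 2 = 4 * β ^ 2 * Y ^ 4 := by rw [hv]; ring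
    have q8 : 48 * Real.exp β * (2 * Y) ^ 4 = 768 * Real.exp β * Y ^ 4 := by ring
    rw [q5] at q1
    rw [q6] at q3
    rw [q8] at hX4
    rw [q7]
    linarith
  -- positivity
  have hlow : 0 ≤ gibbs μ J χ (fun x =>
      Real.exp (∑ e, J e * (Real.cosh (y e) - 1) * (χ e).c x) *
      Real.cos (∑ e, J e * Real.sinh (y e) * (χ e).s x)) := by
    have h3 : gibbs μ J χ (fun x => (1 - v) +
        (-(3 / 2)) * (∑ e, J e * Real.sinh (y e) * (χ e).s x) ^ 2 +
        0 * (∑ e, J e * Real.sinh (y e) * (χ e).s x) ^ 2) ≤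
      gibbs μ J χ (fun x => Real.exp (∑ e, J e * (Real.cosh (y e) - 1) * (χ e).c x) *
      Real.cos (∑ e, J e * Real.sinh (y e) * (χ e).s x)) := by
      apply gibbs_mono
      · exact ((continuous_const.add (continuous_const.mul (cX.pow 2))).add
          (continuous_const.mul (cX.pow 2)))
      · exact (Real.continuous_exp.comp cV).mul (Real.continuous_cos.comp cX)
      intro x
      have p1 := (ptU (X := ∑ e, J e * Real.sinh (y e) * (χ e).s x) (hVv x) (by linarith)).2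
      linarith
    have d2 : Continuous (fun x => (∑ e, J e * Real.sinh (y e) * (χ e).s x) ^ 2) := cX.pow 2
    rw [gibbs_lin μ J χ _ _ _ d2 d2] at h3
    refine le_trans ?_ h3
    have h5 : 4 * β * Y ^ 2 ≤ 1 / 12 := by linarith
    linarith
  exact abs_rho_eq μ J χ y _ hlow hup

include h2 in
/-- the form of a combination of two orthogonal directions and a remainder -/
theorem Qform_expandU (hJ : ∀ e, 0 ≤ J e) (h v w : κ → ℝ) (habs_h : ∀ e, |h e| ≤ 1)
    (habs_v : ∀ e, |v e| ≤ 1) (hhv : ∀ e, h e * v e = 0) (hw : ∀ e, |w e| ≤ 1)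
    (hcross : gibbs μ J χ (fun x => (∑ e, J e * h e * (χ e).s x) *
      (∑ e, J e * v e * (χ e).s x)) = 0) (S : ℝ) (hS : S = ∑ e, J e) (p q k : ℝ) :
    Qform μ J χ (fun e => p * h e + q * v e + k * w e) ≤
      p ^ 2 * Qform μ J χ h + q ^ 2 * Qform μ J χ v + 2 * S * (|k| * (|p| + |q| + |k|)) := by
  have hS0 : 0 ≤ S := by rw [hS]; exact Finset.sum_nonneg fun e _ => hJ e
  obtain ⟨A, hA⟩ : ∃ A : κ → ℝ, A = fun e => p * h e + q * v e := ⟨_, rfl⟩
  obtain ⟨m, hm⟩ : ∃ m, m = |p| + |q| := ⟨_, rfl⟩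
  have hm0 : 0 ≤ m := by rw [hm]; positivity
  have hsumle : ∀ (f : κ → ℝ) (t : ℝ), (∀ e, |f e| ≤ t) → Qform μ J χ f ≤ S * t ^ 2 := by
    intro f t hf
    refine (Qform_le_sum μ J χ hJ f).trans ?_
    rw [hS, Finset.sum_mul]
    refine Finset.sum_le_sum fun e _ => mul_le_mul_of_nonneg_left ?_ (hJ e)
    rw [← sq_abs]
    exact pow_le_pow_left₀ (abs_nonneg _) (hf e) 2
  have hAabs : ∀ e, |A e| ≤ m := by
    intro e
    rw [hA, hm]
    refine (abs_add_le _ _).trans ?_
    rw [abs_mul, abs_mul]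
    gcongr
    · exact mul_le_of_le_one_right (abs_nonneg _) (habs_h e)
    · exact mul_le_of_le_one_right (abs_nonneg _) (habs_v e)
  have hQA : Qform μ J χ A ≤ S * m ^ 2 := hsumle A m hAabs
  have hQw : Qform μ J χ w ≤ S := by
    have := hsumle w 1 hw
    linarith
  have hQA' : Qform μ J χ A ≤ p ^ 2 * Qform μ J χ h + q ^ 2 * Qform μ J χ v := by
    have h3 := Qform_expand μ J χ hJ h v w habs_h habs_v hhv hw hcross S hS p q 0 _ rfl
    have e1 : (fun e => p * h e + q * v e + 0 * w e) = A := by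
      rw [hA]; ext e; ring
    rw [e1, abs_zero, zero_mul, mul_zero, add_zero] at h3
    exact h3
  obtain ⟨B, hB⟩ : ∃ B, B = UJ.QQ μ J χ 0 A w := ⟨_, rfl⟩
  have hexp : ∀ t : ℝ, Qform μ J χ (A + t • w) =
      Qform μ J χ w * (t * t) + 2 * B * t + Qform μ J χ A := by
    intro t
    rw [← UJ.QQ_zero, ← UJ.QQ_zero, ← UJ.QQ_zero, UJ.QQ_add, UJ.QQ_symm μ J χ 0 (A + t • w) A,
      UJ.QQ_symm μ J χ 0 (A + t • w) (t • w), UJ.QQ_add, UJ.QQ_add, UJ.QQ_smul,
      UJ.QQ_symm μ J χ 0 (t • w) A, UJ.QQ_smul, UJ.QQ_smul, UJ.QQ_symm μ J χ 0 (t • w) w,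
      UJ.QQ_smul, ← hB]
    ring
  have hdisc : discrim (Qform μ J χ w) (2 * B) (Qform μ J χ A) ≤ 0 := by
    apply discrim_le_zero
    intro t
    rw [← hexp t]
    exact Qform_nonneg μ J χ h2 hJ _
  have hBsq : B ^ 2 ≤ (S * m) ^ 2 := by
    unfold discrim at hdisc
    have h3 : B ^ 2 ≤ Qform μ J χ w * Qform μ J χ A := by nlinarith
    have h4 : Qform μ J χ w * Qform μ J χ A ≤ S * (S * m ^ 2) :=
      mul_le_mul hQw hQA (Qform_nonneg μ J χ h2 hJ _) hS0
    calc B ^ 2 ≤ S * (S * m ^ 2) := h3.trans h4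
      _ = (S * m) ^ 2 := by ring
  have hBabs : |B| ≤ S * m := abs_le_of_sq_le_sq hBsq (by positivity)
  have e2 : (fun e => p * h e + q * v e + k * w e) = A + k • w := by
    rw [hA]; ext e; simp
  rw [e2, hexp k]
  have h5 : k * B ≤ |k| * (S * m) := by
    refine (le_abs_self _).trans ?_
    rw [abs_mul]
    exact mul_le_mul_of_nonneg_left hBabs (abs_nonneg _)
  have h6 : Qform μ J χ w * (k * k) ≤ S * (k * k) :=
    mul_le_mul_of_nonneg_right hQw (mul_self_nonneg k)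
  have h7 : |k| * |k| = k * k := abs_mul_abs_self k
  have h8 : 0 ≤ S * (k * k) := mul_nonneg hS0 (mul_self_nonneg k)
  have h9 : 2 * S * (|k| * (|p| + |q| + |k|)) = 2 * (|k| * (S * m)) + 2 * (S * (k * k)) := by
    rw [← h7, hm]; ring
  rw [h9]
  linarith

end

/-- sum of the couplings of a block -/
theorem sum_JU (l : ℕ) (b : ℝ) : ∑ _e : BI l, b / 2 = 2 * b * (l : ℝ) ^ 2 := by
  rw [Finset.sum_const, nsmul_eq_mul, Finset.card_univ]
  have : Fintype.card (BI l) = l * l * 4 := by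
    simp [BI, Fintype.card_prod]
  rw [this]
  push_cast
  ring

/-- bound of one block factor, uniform in the side of the block -/
theorem rho_blockU {l : ℕ} (hl : 1 ≤ l) {b U β : ℝ} (hb : 0 ≤ b) (hbβ : 2 * b ≤ β)
    (hU : stiff l b ≤ U) (a : ℤ × ℤ → ℝ) (k : ℤ × ℤ) (hY : cY a k ≤ 1 / (7 * (1 + β))) :
      rho muInf (fun _ : BI l => b / 2) (chi0 l)
        (fun e => (-(cp a k / l)) * hh e + (-(cq a k / l)) * vv e + (-(ck a k / l)) * ww e) ≤
        Real.exp (U / 2 * (cp a k ^ 2 + cq a k ^ 2) +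
          cU β * (|ck a k| * cY a k + cY a k ^ 4)) := by
  have hβ0 : 0 ≤ β := by linarith
  have hl1 : (1 : ℝ) ≤ l := by exact_mod_cast hl
  have hl0 : (0 : ℝ) < l := by linarith
  have hJ : ∀ _ : BI l, 0 ≤ (fun _ : BI l => b / 2) ‹_› := fun _ => by positivity
  obtain ⟨Y, hYd⟩ : ∃ Y, Y = cY a k := ⟨_, rfl⟩
  have hY0 : 0 ≤ Y := by rw [hYd]; unfold cY; positivity
  obtain ⟨y, hy⟩ : ∃ y : BI l → ℝ, y = fun e => (-(cp a k / l)) * hh e +
    (-(cq a k / l)) * vv e + (-(ck a k / l)) * ww e := ⟨_, rfl⟩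
  have e1 : |(-(cp a k / l))| + |(-(cq a k / l))| + |(-(ck a k / l))| = Y / l := by
    rw [hYd]
    unfold cY
    rw [abs_neg, abs_neg, abs_neg, abs_div, abs_div, abs_div, abs_of_pos hl0]
    ring
  have hyl : ∀ e, |y e| ≤ Y / l := by
    intro e
    rw [hy, ← e1]
    calc |(-(cp a k / l)) * hh e + (-(cq a k / l)) * vv e + (-(ck a k / l)) * ww e|
        ≤ |(-(cp a k / l)) * hh e| + |(-(cq a k / l)) * vv e| + |(-(ck a k / l)) * ww e| := by
          refine (abs_add_le _ _).trans ?_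
          gcongr
          exact abs_add_le _ _
      _ ≤ |(-(cp a k / l))| + |(-(cq a k / l))| + |(-(ck a k / l))| := by
          rw [abs_mul, abs_mul, abs_mul]
          gcongr
          · exact mul_le_of_le_one_right (abs_nonneg _) (hh_abs e)
          · exact mul_le_of_le_one_right (abs_nonneg _) (vv_abs e)
          · exact mul_le_of_le_one_right (abs_nonneg _) (ww_abs hl e)
  have hYl : Y / l ≤ Y := div_le_self hY0 hl1
  have hYl0 : 0 ≤ Y / l := by positivity
  -- the form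
  have hQ : Qform muInf (fun _ : BI l => b / 2) (chi0 l) y ≤
      stiff l b * (cp a k ^ 2 + cq a k ^ 2) + 2 * (β * (|ck a k| * Y)) := by
    have h3 := Qform_expandU muInf (fun _ : BI l => b / 2) (chi0 l) pi_div2
      hJ hh vv ww hh_abs vv_abs hh_mul_vv (ww_abs hl) (cross_zero l b)
      _ rfl (-(cp a k / l)) (-(cq a k / l)) (-(ck a k / l))
    rw [e1, Q_h l b hl, Q_v l b hl, sum_JU, ← hy] at h3
    refine h3.trans ?_
    have e3 : ((-(cp a k / l)) ^ 2 * ((l : ℝ) ^ 2 * stiff l b) +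
      (-(cq a k / l)) ^ 2 * ((l : ℝ) ^ 2 * stiff l b)) =
      stiff l b * (cp a k ^ 2 + cq a k ^ 2) := by
      field_simp
    have e4 : |(-(ck a k / l))| = |ck a k| / l := by
      rw [abs_neg, abs_div, abs_of_pos hl0]
    have e5 : 2 * (2 * b * (l : ℝ) ^ 2) * (|ck a k| / l * (Y / l)) = 2 * (2 * b * (|ck a k| * Y)) := by
      field_simp
    rw [e3, e4, e5]
    have e6 : 0 ≤ |ck a k| * Y := by positivity
    have e7 := mul_le_mul_of_nonneg_right hbβ e6
    linarith
  rw [← hYd, ← hy]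
  have hst : stiff l b * (cp a k ^ 2 + cq a k ^ 2) ≤ U * (cp a k ^ 2 + cq a k ^ 2) :=
    mul_le_mul_of_nonneg_right hU (by positivity)
  have hkY : 0 ≤ |ck a k| * Y := by positivity
  have hcU : cU β = 2 * β + 8 * β ^ 2 + 384 * Real.exp β + β := rfl
  have hC0 : 0 ≤ 2 * β + 8 * β ^ 2 + 384 * Real.exp β := by
    have := Real.exp_pos β
    positivity
  have hrho : rho muInf (fun _ : BI l => b / 2) (chi0 l) y ≤
      1 + Qform muInf (fun _ : BI l => b / 2) (chi0 l) y / 2 +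
      (2 * β + 8 * β ^ 2 + 384 * Real.exp β) * Y ^ 4 := by
    rcases hY0.eq_or_lt with h0 | hpos
    · rw [← h0]
      have h3 := rho_second muInf (fun _ : BI l => b / 2) (chi0 l) hJ
        (S := ∑ _e : BI l, b / 2) rfl y (Y := 0) zero_le_one (by rw [mul_zero]; norm_num)
        (fun e => by have := hyl e; rwa [← h0, zero_div] at this) le_rfl
      simpa using h3
    · rw [← hYd] at hY
      have h7 : Y * (7 * (1 + β)) ≤ 1 := by
        rwa [le_div_iff₀ (by positivity)] at hY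
      have hY7 : Y * 7 ≤ 1 := by nlinarith
      have hY1 : Y ≤ 1 := by linarith
      have hsq : 48 * β * Y ^ 2 ≤ 1 := by
        have h8 : (Y * (7 * (1 + β))) ^ 2 ≤ 1 := pow_le_one₀ (by positivity) h7
        have h9 : 49 * (Y ^ 2 * (1 + β) ^ 2) ≤ 1 := by
          calc 49 * (Y ^ 2 * (1 + β) ^ 2) = (Y * (7 * (1 + β))) ^ 2 := by ring
            _ ≤ 1 := h8
        have h10 : β ≤ (1 + β) ^ 2 := by nlinarith
        have h11 : Y ^ 2 * β ≤ Y ^ 2 * (1 + β) ^ 2 := mul_le_mul_of_nonneg_left h10 (sq_nonneg _)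
        have h12 : 0 ≤ Y ^ 2 * β := by positivity
        nlinarith
      have hsum : ∀ (f : BI l → ℝ) (t : ℝ), (∀ e, f e ≤ t) →
          ∑ e, (fun _ : BI l => b / 2) e * f e ≤ 2 * b * (l : ℝ) ^ 2 * t := by
        intro f t hf
        rw [← sum_JU, Finset.sum_mul]
        exact Finset.sum_le_sum fun e _ => mul_le_mul_of_nonneg_left (hf e) (hJ e)
      have hpow : ∀ r : ℕ, 2 ≤ r → 2 * b * (l : ℝ) ^ 2 * (Y / l) ^ r ≤ β * Y ^ r := by
        intro r hr
        have h8 : (l : ℝ) ^ 2 * (Y / l) ^ r ≤ Y ^ r := by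
          rw [div_pow, mul_div_assoc', div_le_iff₀ (by positivity), mul_comm]
          exact mul_le_mul_of_nonneg_left (pow_le_pow_right₀ hl1 hr) (by positivity)
        calc 2 * b * (l : ℝ) ^ 2 * (Y / l) ^ r = 2 * b * ((l : ℝ) ^ 2 * (Y / l) ^ r) := by ring
          _ ≤ β * Y ^ r := mul_le_mul hbβ h8 (by positivity) hβ0
      apply rho_secondU muInf (fun _ : BI l => b / 2) (chi0 l) pi_div2 hJ y hpos hY1 hβ0 hsq
      · intro e
        exact (hyl e).trans hYl
      · refine (hsum (fun e => y e ^ 2) ((Y / l) ^ 2) fun e => ?_).trans (hpow 2 le_rfl)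
        rw [← sq_abs]
        exact pow_le_pow_left₀ (abs_nonneg _) (hyl e) 2
      · refine (hsum (fun e => |y e| ^ 4) ((Y / l) ^ 4) fun e => ?_).trans (hpow 4 (by norm_num))
        exact pow_le_pow_left₀ (abs_nonneg _) (hyl e) 4
      · refine (hsum (fun e => (|y e| ^ 3) ^ 2) ((Y / l) ^ 6) fun e => ?_).trans
          (hpow 6 (by norm_num))
        calc (|y e| ^ 3) ^ 2 = |y e| ^ 6 := by ring
          _ ≤ (Y / l) ^ 6 := pow_le_pow_left₀ (abs_nonneg _) (hyl e) 6
  refine hrho.trans ?_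
  have hfin : 1 + Qform muInf (fun _ : BI l => b / 2) (chi0 l) y / 2 +
      (2 * β + 8 * β ^ 2 + 384 * Real.exp β) * Y ^ 4 ≤
      (U / 2 * (cp a k ^ 2 + cq a k ^ 2) + cU β * (|ck a k| * Y + Y ^ 4)) + 1 := by
    have h13 : 0 ≤ (2 * β + 8 * β ^ 2 + 384 * Real.exp β) * (|ck a k| * Y) := by positivity
    have h14 : 0 ≤ β * Y ^ 4 := by positivity
    rw [hcU]
    nlinarith only [h13, h14, hQ, hst]
  exact hfin.trans (Real.add_one_le_exp _)

end NC.H731

end Vale.Agent.P159
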