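import Vale.Agent.P159.T1.NC.Props
import Vale.Agent.P159.T1.NC.H731.RhoU
import Vale.Agent.P159.T1.NC.H731.EndQ

set_option linter.all false

/-!
The end game with an exponent close to one: if the stiffness of the block of side `l` is small
then the correlation length is at most a constant times `l ^ (1 + ε)`.
-/

open MeasureTheory Filter Topology
open scoped BigOperators

namespace Vale.Agent.P159

namespace NC.H731

open XY (C nm)

/-- starting radius of the profile -/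
noncomputable def rU (β t : ℝ) : ℝ := 9 + 112 * t * (1 + β)

/-- constant of the power law -/
noncomputable def kU (β U t : ℝ) : ℝ := Real.exp (2 * t * Real.log (rU β t) + U * t ^ 2 * 4600 +
  cU β * (t ^ 2 + t ^ 4) * 452800) * (4 : ℝ) ^ |2 * t - 2 * Real.pi * U * t ^ 2| +
  (2 * rU β t + 4) ^ |2 * t - 2 * Real.pi * U * t ^ 2|

theorem cU_nonneg {β : ℝ} (hβ : 0 ≤ β) : 0 ≤ cU β := by
  have := Real.exp_pos β
  unfold cU
  positivity

/-- power law bound at the corners of the blocks, constants uniform in the side -/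
theorem ms_coarseU {l : ℕ} (hl : 1 ≤ l) {b : ℝ} (hb : 0 ≤ b) {U β t s : ℝ} (hU0 : 0 ≤ U)
    (hbβ : 2 * b ≤ β) (hU : stiff l b ≤ U) (ht : 0 < t)
    (hs : s = 2 * t - 2 * Real.pi * U * t ^ 2)
    (R : ℕ) (x : ℤ × ℤ) (hx0 : x ≠ 0) (hxR : cor l x ∈ box R) :
      corr R b (cor l x) ≤ kU β U t * ((max |x.1| |x.2| : ℤ) : ℝ) ^ (-s) := by
  have hβ0 : 0 ≤ β := by linarith
  obtain ⟨C, hC⟩ : ∃ C, C = cU β := ⟨_, rfl⟩
  have hC0 : 0 ≤ C := by rw [hC]; exact cU_nonneg hβ0
  obtain ⟨M, hMdef⟩ : ∃ M, M = rU β t := ⟨_, rfl⟩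
  have hMv : M = 9 + 112 * t * (1 + β) := hMdef
  have hM : 9 ≤ M := by
    have : 0 ≤ 112 * t * (1 + β) := by positivity
    linarith
  have hM0 : 0 < M := by linarith
  set c0 := 2 * t * Real.log M + U * t ^ 2 * 4600 + C * (t ^ 2 + t ^ 4) * 452800 with hc0
  have hK1 : kU β U t = Real.exp c0 * (4 : ℝ) ^ |s| + (2 * M + 4) ^ |s| := by
    unfold kU
    rw [← hMdef, ← hC, ← hs]
  rw [hK1]
  obtain ⟨X, hX⟩ : ∃ X : ℕ, (X : ℤ) = max |x.1| |x.2| :=
    ⟨(max |x.1| |x.2|).toNat, Int.toNat_of_nonneg (le_max_of_le_left (abs_nonneg _))⟩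
  have hX1 : 1 ≤ X := by
    by_contra h
    have h0 : X = 0 := by omega
    rw [h0] at hX
    apply hx0
    have h1 : |x.1| ≤ 0 := by
      have := le_max_left |x.1| |x.2|
      omega
    have h2 : |x.2| ≤ 0 := by
      have := le_max_right |x.1| |x.2|
      omega
    ext
    · exact abs_eq_zero.1 (le_antisymm h1 (abs_nonneg _))
    · exact abs_eq_zero.1 (le_antisymm h2 (abs_nonneg _))
  rw [← hX]
  have hXr : (1 : ℝ) ≤ ((X : ℤ) : ℝ) := by exact_mod_cast hX1
  have hXpos : (0 : ℝ) < ((X : ℤ) : ℝ) := by linarith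
  have h4s : (0 : ℝ) < (4 : ℝ) ^ |s| := by positivity
  have hMs : (0 : ℝ) < (2 * M + 4) ^ |s| := by positivity
  by_cases hsmall : ((X : ℤ) : ℝ) ≤ 2 * M + 4
  · -- small distances
    have h1 : (1 : ℝ) ≤ (2 * M + 4) ^ |s| * ((X : ℤ) : ℝ) ^ (-s) := by
      have h2 : ((X : ℤ) : ℝ) ^ s ≤ (2 * M + 4) ^ |s| := by
        calc ((X : ℤ) : ℝ) ^ s ≤ ((X : ℤ) : ℝ) ^ |s| :=
              Real.rpow_le_rpow_of_exponent_le hXr (le_abs_self s)
          _ ≤ (2 * M + 4) ^ |s| := Real.rpow_le_rpow hXpos.le hsmall (abs_nonneg s)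
      rw [Real.rpow_neg hXpos.le, ← div_eq_mul_inv, le_div_iff₀ (Real.rpow_pos_of_pos hXpos s),
        one_mul]
      exact h2
    have h2 := corr_le_one R (b := b) hxR
    have h3 : 0 ≤ Real.exp c0 * (4 : ℝ) ^ |s| * ((X : ℤ) : ℝ) ^ (-s) := by positivity
    rw [add_mul]
    linarith only [h1, h2, h3]
  · push Not at hsmall
    obtain ⟨n, hn⟩ : ∃ n : ℕ, n = (X - 1) / 2 := ⟨_, rfl⟩
    have hX22 : 22 < X := by
      have h1 : (22 : ℝ) < ((X : ℤ) : ℝ) := by linarith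
      exact_mod_cast h1
    have hn1 : 1 ≤ n := by omega
    have hn2 : 2 * n < X := by omega
    have hn3 : X ≤ 4 * n := by omega
    have hn4 : X ≤ 2 * n + 2 := by omega
    have hnr : (1 : ℝ) ≤ (n : ℝ) := by exact_mod_cast hn1
    have hnM : M ≤ n := by
      have h1 : ((X : ℤ) : ℝ) ≤ 2 * n + 2 := by exact_mod_cast hn4
      linarith
    have hx2 : 2 * (n : ℤ) < max |x.1| |x.2| := by rw [← hX]; exact_mod_cast hn2
    set a : ℤ × ℤ → ℝ := fun z => t * (psi M n z - psi M n (z - x)) with ha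
    have hgrid := grid_bound hl (R + 1) hb a x
    refine (corr_le_grid hl (le_refl _) hb hxR hgrid).trans ?_
    -- smallness
    have hYsmall : ∀ k, cY a k ≤ 1 / (7 * (1 + β)) := by
      intro k
      refine (two_centre hM ht hx2 k).2.1.trans ?_
      have h1 : ∀ z, cY (psi M n) z ≤ 16 / M := by
        intro z
        refine (cY_le hM n z).trans ?_
        have h2 : M ≤ Real.sqrt (qq M z) := by
          apply Real.le_sqrt_of_sq_le
          unfold qq
          nlinarith only []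
        gcongr
      have h2 : t * max (cY (psi M n) k) (cY (psi M n) (k - x)) ≤ t * (16 / M) :=
        mul_le_mul_of_nonneg_left (max_le (h1 _) (h1 _)) ht.le
      refine h2.trans ?_
      rw [mul_div_assoc', div_le_div_iff₀ hM0 (by positivity), hMv]
      linarith
    have hprod : ∏ k ∈ ivl (R + 1) ×ˢ ivl (R + 1), rho muInf (fun _ : BI l => b / 2) (chi0 l)
        (fun e => (-(cp a k / l)) * hh e + (-(cq a k / l)) * vv e + (-(ck a k / l)) * ww e) ≤
        Real.exp (U * t ^ 2 * (2 * Real.pi * Real.log n + 4600) +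
          C * (t ^ 2 + t ^ 4) * 452800) := by
      have h1 : ∏ k ∈ ivl (R + 1) ×ˢ ivl (R + 1), rho muInf (fun _ : BI l => b / 2) (chi0 l)
        (fun e => (-(cp a k / l)) * hh e + (-(cq a k / l)) * vv e + (-(ck a k / l)) * ww e) ≤
        ∏ k ∈ ivl (R + 1) ×ˢ ivl (R + 1), Real.exp (U / 2 * (cp a k ^ 2 + cq a k ^ 2) +
          C * (|ck a k| * cY a k + cY a k ^ 4)) :=
        Finset.prod_le_prod (fun k _ => div_nonneg (norm_nonneg _) (norm_nonneg _))
          (fun k _ => by rw [hC]; exact rho_blockU hl hb hbβ hU a k (hYsmall k))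
      refine h1.trans ?_
      rw [← Real.exp_sum]
      apply Real.exp_le_exp.2
      set T := ivl (R + 1) ×ˢ ivl (R + 1) with hT
      have h2 : ∀ k ∈ T, U / 2 * (cp a k ^ 2 + cq a k ^ 2) +
          C * (|ck a k| * cY a k + cY a k ^ 4) ≤
          U * t ^ 2 / 2 * ((cp (psi M n) (k - 0) ^ 2 + cq (psi M n) (k - 0) ^ 2) +
            (cp (psi M n) (k - x) ^ 2 + cq (psi M n) (k - x) ^ 2)) +
          C * (t ^ 2 + t ^ 4) * ((|ck (psi M n) (k - 0)| * cY (psi M n) (k - 0) +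
            cY (psi M n) (k - 0) ^ 4) +
            (|ck (psi M n) (k - x)| * cY (psi M n) (k - x) + cY (psi M n) (k - x) ^ 4)) := by
        intro k _
        obtain ⟨g1, _, g3⟩ := two_centre hM ht hx2 k
        rw [sub_zero]
        have g4 := mul_le_mul_of_nonneg_left g3 hC0
        rw [g1]
        have g5 : U / 2 * (t ^ 2 * (cp (psi M n) k ^ 2 + cq (psi M n) k ^ 2 +
            (cp (psi M n) (k - x) ^ 2 + cq (psi M n) (k - x) ^ 2))) =
            U * t ^ 2 / 2 * (cp (psi M n) k ^ 2 + cq (psi M n) k ^ 2 +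
            (cp (psi M n) (k - x) ^ 2 + cq (psi M n) (k - x) ^ 2)) := by ring
        rw [g5]
        have g6 := mul_assoc C (t ^ 2 + t ^ 4) (|ck (psi M n) k| * cY (psi M n) k +
            cY (psi M n) k ^ 4 + (|ck (psi M n) (k - x)| * cY (psi M n) (k - x) +
            cY (psi M n) (k - x) ^ 4))
        rw [g6]
        exact add_le_add le_rfl g4
      refine (Finset.sum_le_sum h2).trans ?_
      rw [Finset.sum_add_distrib, ← Finset.mul_sum, ← Finset.mul_sum]
      have k1 : ∑ k ∈ T, ((cp (psi M n) (k - 0) ^ 2 + cq (psi M n) (k - 0) ^ 2) +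
            (cp (psi M n) (k - x) ^ 2 + cq (psi M n) (k - x) ^ 2)) =
          ∑ k ∈ T, (cp (psi M n) (k - 0) ^ 2 + cq (psi M n) (k - 0) ^ 2) +
          ∑ k ∈ T, (cp (psi M n) (k - x) ^ 2 + cq (psi M n) (k - x) ^ 2) :=
        Finset.sum_add_distrib
      have k2 : ∑ k ∈ T, ((|ck (psi M n) (k - 0)| * cY (psi M n) (k - 0) +
            cY (psi M n) (k - 0) ^ 4) + (|ck (psi M n) (k - x)| * cY (psi M n) (k - x) +
            cY (psi M n) (k - x) ^ 4)) =
          ∑ k ∈ T, (|ck (psi M n) (k - 0)| * cY (psi M n) (k - 0) +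
            cY (psi M n) (k - 0) ^ 4) + ∑ k ∈ T, (|ck (psi M n) (k - x)| * cY (psi M n) (k - x) +
            cY (psi M n) (k - x) ^ 4) := Finset.sum_add_distrib
      rw [k1, k2]
      have p0 := sum_P_le hM hn1 T 0
      have p1 := sum_P_le hM hn1 T x
      have q0 := sum_E_leQ hM hn1 T 0
      have q1 := sum_E_leQ hM hn1 T x
      have q2 : 200000 / M + 26400 / (n : ℝ) ≤ 226400 := by
        have h3 : 26400 / (n : ℝ) ≤ 26400 := div_le_self (by norm_num) hnr
        have h4 : 200000 / M ≤ 200000 := div_le_self (by norm_num) (by linarith)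
        linarith
      have r1 : U * t ^ 2 / 2 * (∑ k ∈ T, (cp (psi M n) (k - 0) ^ 2 + cq (psi M n) (k - 0) ^ 2) +
          ∑ k ∈ T, (cp (psi M n) (k - x) ^ 2 + cq (psi M n) (k - x) ^ 2)) ≤
          U * t ^ 2 / 2 * ((2 * Real.pi * Real.log n + 4600) +
            (2 * Real.pi * Real.log n + 4600)) :=
        mul_le_mul_of_nonneg_left (add_le_add p0 p1) (by positivity)
      have r2 : C * (t ^ 2 + t ^ 4) * (∑ k ∈ T, (|ck (psi M n) (k - 0)| * cY (psi M n) (k - 0) +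
            cY (psi M n) (k - 0) ^ 4) + ∑ k ∈ T, (|ck (psi M n) (k - x)| * cY (psi M n) (k - x) +
            cY (psi M n) (k - x) ^ 4)) ≤ C * (t ^ 2 + t ^ 4) * (226400 + 226400) :=
        mul_le_mul_of_nonneg_left (add_le_add (q0.trans q2) (q1.trans q2)) (by positivity)
      linarith only [r1, r2]
    have hdiff : 2 * t * Real.log n - 2 * t * Real.log M ≤ a 0 - a x := by
      have hzero : ∀ w : ℤ × ℤ, (n : ℤ) < max |w.1| |w.2| → psi M n w = 0 := by
        intro w hw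
        by_contra hne
        obtain ⟨h1, h2⟩ := psi_support hM hne
        have := max_lt h1 h2
        omega
      have e1 : psi M n (0 - x) = 0 := by
        apply hzero
        simp only [zero_sub, Prod.fst_neg, Prod.snd_neg, abs_neg]
        omega
      have e2 : psi M n x = 0 := by
        apply hzero
        omega
      simp only [ha]
      rw [e1, e2, sub_self]
      have e3 : Real.log n - Real.log M ≤ psi M n 0 := by
        unfold psi phi qq
        refine le_trans ?_ (le_max_right _ _)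
        have h1 : Real.log ((n : ℝ) ^ 2) ≤ Real.log (M ^ 2 + (n : ℝ) ^ 2) := by
          apply Real.log_le_log (by positivity)
          nlinarith only []
        rw [Real.log_pow] at h1
        have h2 : M ^ 2 + (((0 : ℤ × ℤ).1 : ℤ) : ℝ) ^ 2 + (((0 : ℤ × ℤ).2 : ℤ) : ℝ) ^ 2 = M ^ 2 := by
          simp
        rw [h2, Real.log_pow]
        push_cast at h1 ⊢
        linarith only [h1]
      have e4 := mul_le_mul_of_nonneg_left e3 ht.le
      linarith only [e4]
    have htot : Real.exp (-(a 0 - a x)) * ∏ k ∈ ivl (R + 1) ×ˢ ivl (R + 1),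
        rho muInf (fun _ : BI l => b / 2) (chi0 l)
        (fun e => (-(cp a k / l)) * hh e + (-(cq a k / l)) * vv e + (-(ck a k / l)) * ww e) ≤
        Real.exp c0 * (n : ℝ) ^ (-s) := by
      calc _ ≤ Real.exp (-(2 * t * Real.log n - 2 * t * Real.log M)) *
            Real.exp (U * t ^ 2 * (2 * Real.pi * Real.log n + 4600) +
              C * (t ^ 2 + t ^ 4) * 452800) := by
            apply mul_le_mul _ hprod _ (Real.exp_pos _).le
            · exact Real.exp_le_exp.2 (by linarith only [hdiff])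
            · exact Finset.prod_nonneg fun k _ => div_nonneg (norm_nonneg _) (norm_nonneg _)
        _ = Real.exp c0 * (n : ℝ) ^ (-s) := by
            rw [Real.rpow_def_of_pos (by linarith only [hnr]), ← Real.exp_add, ← Real.exp_add]
            congr 1
            rw [hc0, hs]
            ring
    refine htot.trans ?_
    have hns : (n : ℝ) ^ (-s) ≤ (4 : ℝ) ^ |s| * ((X : ℤ) : ℝ) ^ (-s) := by
      have hn0 : (0 : ℝ) < n := by linarith only [hnr]
      have hXn : ((X : ℤ) : ℝ) ≤ 4 * n := by exact_mod_cast hn3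
      have hnX : (n : ℝ) ≤ ((X : ℤ) : ℝ) := by
        have : n ≤ X := by omega
        exact_mod_cast this
      rcases le_or_gt 0 s with h | h
      · rw [abs_of_nonneg h, Real.rpow_neg hn0.le, Real.rpow_neg hXpos.le, ← div_eq_mul_inv,
          le_div_iff₀ (Real.rpow_pos_of_pos hXpos s), ← div_eq_inv_mul,
          div_le_iff₀ (Real.rpow_pos_of_pos hn0 s), ← Real.mul_rpow (by norm_num) hn0.le]
        exact Real.rpow_le_rpow hXpos.le hXn h
      · calc (n : ℝ) ^ (-s) ≤ ((X : ℤ) : ℝ) ^ (-s) := Real.rpow_le_rpow hn0.le hnX (by linarith only [h])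
          _ ≤ (4 : ℝ) ^ |s| * ((X : ℤ) : ℝ) ^ (-s) := by
            have : (1 : ℝ) ≤ (4 : ℝ) ^ |s| := Real.one_le_rpow (by norm_num) (abs_nonneg s)
            have h0 : 0 ≤ ((X : ℤ) : ℝ) ^ (-s) := by positivity
            nlinarith only [this, h0]
    have h5 : Real.exp c0 * (n : ℝ) ^ (-s) ≤ Real.exp c0 * ((4 : ℝ) ^ |s| * ((X : ℤ) : ℝ) ^ (-s)) :=
      mul_le_mul_of_nonneg_left hns (Real.exp_pos _).le
    have h6 : 0 ≤ (2 * M + 4) ^ |s| * ((X : ℤ) : ℝ) ^ (-s) := by positivity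
    rw [add_mul]
    linarith only [h5, h6]

theorem kU_pos {β U t : ℝ} (hβ : 0 ≤ β) (ht : 0 < t) : 0 < kU β U t := by
  have hM : 0 ≤ rU β t := by unfold rU; positivity
  unfold kU
  positivity

/-- power law bound at the corners in infinite volume -/
theorem decay_corU {b : ℝ} (hb : 0 < b) {l : ℕ} (hl : 1 ≤ l) {U β t s : ℝ} (hU0 : 0 ≤ U)
    (hbβ : 2 * b ≤ β) (hU : stiff l b ≤ U) (ht : 0 < t)
    (hs : s = 2 * t - 2 * Real.pi * U * t ^ 2)
    (x : ℤ × ℤ) (h1 : (l : ℤ) ∣ x.1) (h2 : (l : ℤ) ∣ x.2) (hx : x ≠ 0) :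
    C b x ≤ (kU β U t * (l : ℝ) ^ s) * (nm x : ℝ) ^ (-s) := by
  have h := ms_coarseU hl hb.le hU0 hbβ hU ht hs
  have hl0 : (0 : ℝ) < l := by exact_mod_cast hl
  have hlz : (0 : ℤ) < l := by exact_mod_cast hl
  generalize kU β U t = K at *
  obtain ⟨z1, hz1⟩ := h1
  obtain ⟨z2, hz2⟩ := h2
  have hxz : x = cor l (z1, z2) := by
    unfold cor
    ext
    · exact hz1
    · exact hz2
  have hz0 : ((z1, z2) : ℤ × ℤ) ≠ 0 := by
    intro h0
    apply hx
    rw [hxz, h0]
    unfold cor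
    ext <;> simp
  apply XY.C_le_of_corr_le hb.le
  intro R hR
  have h3 := h R (z1, z2) hz0 (hxz ▸ hR)
  rw [← hxz] at h3
  refine h3.trans (le_of_eq ?_)
  have h4 : (nm x : ℝ) = l * ((max |z1| |z2| : ℤ) : ℝ) := by
    rw [XY.nm_cast, hz1, hz2]
    push_cast
    rw [abs_mul, abs_mul, abs_of_pos hl0, mul_max_of_nonneg _ _ hl0.le]
  rw [h4]
  have h5 : (0 : ℝ) ≤ ((max |z1| |z2| : ℤ) : ℝ) := by
    exact_mod_cast le_max_of_le_left (abs_nonneg z1)
  rw [Real.mul_rpow hl0.le h5, mul_assoc, ← mul_assoc ((l : ℝ) ^ s), ← Real.rpow_add hl0]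
  simp only [Int.cast_max, Int.cast_abs, add_neg_cancel, Real.rpow_zero, one_mul]

/-- The end game with an exponent close to one. -/
theorem endU : EndU := by
  intro b0 B ε h0 hBpos hε
  have hpi := Real.pi_pos
  obtain ⟨E, hE⟩ : ∃ E, E = 1 + 5 / ε := ⟨_, rfl⟩
  have hE1 : 1 < E := by
    have : 0 < 5 / ε := by positivity
    linarith
  have hE0 : 0 < E := by linarith
  obtain ⟨t0, ht0⟩ : ∃ t0, t0 = 1 / (2 * Real.pi * E) := ⟨_, rfl⟩
  have ht00 : 0 < t0 := by rw [ht0]; positivity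
  have hsE : E = 2 * E - 2 * Real.pi * t0 * E ^ 2 := by
    rw [ht0]
    field_simp
    ring
  by_cases hB : b0 ≤ B
  swap
  · exact ⟨t0, 1, ht00, le_rfl, fun b h1 h2 => absurd (h1.trans h2) hB⟩
  obtain ⟨β, hβ⟩ : ∃ β, β = 2 * B := ⟨_, rfl⟩
  have hβ0 : 0 ≤ β := by rw [hβ]; positivity
  obtain ⟨K, hK⟩ : ∃ K, K = kU β t0 E := ⟨_, rfl⟩
  have hK0 : 0 < K := by rw [hK]; exact kU_pos hβ0 hE0
  obtain ⟨c1, hc1⟩ : ∃ c1, c1 = C b0 (1, 0) := ⟨_, rfl⟩
  have hc10 : 0 < c1 := by rw [hc1]; exact XY.C_e1_pos h0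
  have hc11 : c1 ≤ 1 := by rw [hc1]; exact XY.C_le_one _ _
  obtain ⟨A2, hA2⟩ : ∃ A2, A2 = K * 2 ^ E * ((96 * (B + 1)) ^ 4 / c1 ^ 6) + 2 ^ E := ⟨_, rfl⟩
  have h2E : (1 : ℝ) ≤ 2 ^ E := Real.one_le_rpow (by norm_num) hE0.le
  have hA21 : 1 ≤ A2 := by
    have : 0 ≤ K * 2 ^ E * ((96 * (B + 1)) ^ 4 / c1 ^ 6) := by positivity
    rw [hA2]; linarith
  obtain ⟨a, ha⟩ : ∃ a, a = E - 1 := ⟨_, rfl⟩
  have ha0 : 0 < a := by rw [ha]; linarith
  have haε : a = 5 / ε := by rw [ha, hE]; ring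
  obtain ⟨D, hD⟩ : ∃ D, D = 96 * (B + 1) * A2 := ⟨_, rfl⟩
  have hD1 : 1 ≤ D := by rw [hD]; nlinarith
  have hD0 : 0 < D := by linarith
  have hDa : 0 < D ^ (1 / a) := Real.rpow_pos_of_pos hD0 _
  refine ⟨t0, 2 * D ^ (1 / a) + 4, ht00, by linarith, ?_⟩
  intro b hb1 hb2 l hl hst
  have hb : 0 < b := lt_of_lt_of_le h0 hb1
  have hl1 : (1 : ℝ) ≤ l := by exact_mod_cast hl
  have hl0 : (0 : ℝ) < l := by linarith
  have hlp : (l : ℝ) ≤ (l : ℝ) ^ (1 + ε) := by
    calc (l : ℝ) = (l : ℝ) ^ (1 : ℝ) := (Real.rpow_one _).symm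
      _ ≤ (l : ℝ) ^ (1 + ε) := Real.rpow_le_rpow_of_exponent_le hl1 (by linarith)
  have h6 : (1 : ℝ) ≤ (l : ℝ) ^ (1 + ε) := hl1.trans hlp
  have key : ∀ n : ℕ, XY.phi b n ≤ 1 / 2 → 0 < mass b ∧ corrLength b ≤ 2 * ((n : ℝ) + 1) := by
    intro n hn
    have h1 := mass_ge_of_phi hb hn
    have h2 : (0 : ℝ) < 1 / (2 * ((n : ℝ) + 1)) := by positivity
    refine ⟨lt_of_lt_of_le h2 h1, ?_⟩
    unfold corrLength
    calc 1 / mass b ≤ 1 / (1 / (2 * ((n : ℝ) + 1))) := one_div_le_one_div_of_le h2 h1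
      _ = 2 * ((n : ℝ) + 1) := one_div_one_div _
  by_cases hphi : ∀ n : ℕ, 1 ≤ n → n ≤ l → 1 / 2 < XY.phi b n
  · obtain ⟨c, hc⟩ : ∃ c, c = (c1 ^ 3 * (1 / (96 * (B + 1) * (l : ℝ))) ^ 2) ^ 2 := ⟨_, rfl⟩
    have hc0 : 0 < c := by rw [hc]; positivity
    have hc1b : c1 ≤ C b (1, 0) := by rw [hc1]; exact XY.C_mono_b h0.le hb1 _
    have hbox : ∀ z ∈ box l, c ≤ C b z := by
      intro z hz
      rw [hc]
      exact box_low hb hb2 hc10 hc11 hc1b hl hphi hz
    have hcor := decay_corU hb hl ht00.le (by rw [hβ]; linarith : 2 * b ≤ β) hst hE0 hsE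
    rw [← hK] at hcor
    have hlE0 : 0 < (l : ℝ) ^ E := Real.rpow_pos_of_pos hl0 _
    have hall := decay_allQ hb hl (mul_pos hK0 hlE0) hE0.le hc0 hbox hcor
    obtain ⟨Q, hQ⟩ : ∃ Q, Q = (l : ℝ) ^ (E + 4) := ⟨_, rfl⟩
    have hQ1 : 1 ≤ Q := by rw [hQ]; exact Real.one_le_rpow hl1 (by linarith)
    have hQ4 : Q = (l : ℝ) ^ E * (l : ℝ) ^ 4 := by
      rw [hQ, Real.rpow_add hl0]
      norm_cast
    have hd : ∀ x : ℤ × ℤ, x ≠ 0 → C b x ≤ (A2 * Q) * (nm x : ℝ) ^ (-E) := by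
      intro x hx
      refine (hall x hx).trans ?_
      have hn0 : (0 : ℝ) ≤ nm x := Nat.cast_nonneg _
      refine mul_le_mul_of_nonneg_right ?_ (Real.rpow_nonneg hn0 _)
      have e5 : 1 / c = (96 * (B + 1)) ^ 4 / c1 ^ 6 * (l : ℝ) ^ 4 := by
        rw [hc]
        field_simp
      have e6 : K * (l : ℝ) ^ E * 2 ^ E / c =
          K * 2 ^ E * ((96 * (B + 1)) ^ 4 / c1 ^ 6) * Q := by
        rw [hQ4, div_eq_mul_one_div, e5]
        ring
      have e8 : (2 * (l : ℝ)) ^ E ≤ 2 ^ E * Q := by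
        rw [Real.mul_rpow (by norm_num) hl0.le]
        refine mul_le_mul_of_nonneg_left ?_ (by positivity)
        rw [hQ]
        exact Real.rpow_le_rpow_of_exponent_le hl1 (by linarith)
      rw [e6, hA2, add_mul]
      linarith
    obtain ⟨n, hn⟩ : ∃ n : ℕ, n = ⌈(D * Q) ^ (1 / a)⌉₊ := ⟨_, rfl⟩
    have hDl : 1 ≤ D * Q := by nlinarith
    have hQ1' : 1 ≤ (D * Q) ^ (1 / a) := Real.one_le_rpow hDl (by positivity)
    have hn1 : 1 ≤ n := by
      rw [hn]
      exact Nat.one_le_iff_ne_zero.2 (by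
        intro h
        rw [Nat.ceil_eq_zero] at h
        linarith)
    have hnge : (D * Q) ^ (1 / a) ≤ n := by rw [hn]; exact Nat.le_ceil _
    have hnle : (n : ℝ) ≤ (D * Q) ^ (1 / a) + 1 := by
      rw [hn]
      exact (Nat.ceil_lt_add_one (by linarith)).le
    have hn0 : (0 : ℝ) < n := by exact_mod_cast hn1
    have hna : D * Q ≤ (n : ℝ) ^ a := by
      calc D * Q = ((D * Q) ^ (1 / a)) ^ a := by
            rw [← Real.rpow_mul (by linarith), one_div_mul_cancel ha0.ne', Real.rpow_one]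
        _ ≤ (n : ℝ) ^ a := Real.rpow_le_rpow (by linarith) hnge ha0.le
    have hA2Q : 0 ≤ A2 * Q := by
      have : 0 ≤ A2 := by linarith
      have : 0 ≤ Q := by linarith
      positivity
    have hEa : E = 1 + a := by rw [ha]; ring
    have hphin : XY.phi b n ≤ 1 / 2 := by
      have h1 := phi_le_sup hb hn1 (mul_nonneg hA2Q (Real.rpow_nonneg hn0.le (-E)))
        (fun u hu1 _ => by
        have hu0 : u ≠ 0 := by
          rintro rfl
          rw [XY.nm_zero] at hu1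
          omega
        refine (hd u hu0).trans ?_
        refine mul_le_mul_of_nonneg_left ?_ hA2Q
        exact Real.rpow_le_rpow_of_nonpos hn0 (by exact_mod_cast hu1) (by linarith))
      refine h1.trans ?_
      have h2 : (n : ℝ) * (n : ℝ) ^ (-E) = 1 / (n : ℝ) ^ a := by
        rw [hEa, show -(1 + a) = -1 + -a by ring, Real.rpow_add hn0, Real.rpow_neg_one,
          Real.rpow_neg hn0.le]
        field_simp
      have h3 : 48 * b * n * ((A2 * Q) * (n : ℝ) ^ (-E)) =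
          48 * b * (A2 * Q) * (1 / (n : ℝ) ^ a) := by
        rw [← h2]; ring
      rw [h3, mul_one_div, div_le_div_iff₀ (by positivity) (by norm_num)]
      have h4 : 48 * b * (A2 * Q) ≤ 48 * (B + 1) * (A2 * Q) := by
        have h6 : 48 * b ≤ 48 * (B + 1) := by linarith
        exact mul_le_mul_of_nonneg_right h6 hA2Q
      have h7 : 48 * (B + 1) * (A2 * Q) * 2 = D * Q := by rw [hD]; ring
      linarith
    obtain ⟨k1, k2⟩ := key n hphin
    refine ⟨k1, k2.trans ?_⟩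
    have h5 : (D * Q) ^ (1 / a) = D ^ (1 / a) * (l : ℝ) ^ (1 + ε) := by
      rw [Real.mul_rpow hD0.le (by linarith), hQ, ← Real.rpow_mul hl0.le]
      congr 2
      rw [hEa, haε]
      field_simp
      ring
    rw [h5] at hnle
    linarith
  · push Not at hphi
    obtain ⟨n, hn1, hn2, hn3⟩ := hphi
    obtain ⟨k1, k2⟩ := key n hn3
    refine ⟨k1, k2.trans ?_⟩
    have h5 : (n : ℝ) ≤ l := by exact_mod_cast hn2
    have h7 : 0 ≤ 2 * D ^ (1 / a) * (l : ℝ) ^ (1 + ε) := by positivity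
    linarith

end NC.H731

end Vale.Agent.P159
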