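import Vale.Agent.P159.Bdl.B2

set_option linter.all false

/-!
Quantitative form of the error sums for the truncated logarithmic profile.
-/

open Filter Topology
open scoped BigOperators

namespace Vale.Agent.P159

namespace NC.H731

/-- lattice points of the open disc of radius `n` -/
def ins (n : ℕ) (z : ℤ × ℤ) : Prop := z.1 ^ 2 + z.2 ^ 2 < (n : ℤ) ^ 2

noncomputable instance (n : ℕ) (z : ℤ × ℤ) : Decidable (ins n z) := Classical.propDecidable _

/-- mixed horizontal edge -/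
def Hm (n : ℕ) (z : ℤ × ℤ) : Prop :=
  (ins n z ∧ ¬ ins n (z + (1, 0))) ∨ (¬ ins n z ∧ ins n (z + (1, 0)))

/-- mixed vertical edge -/
def Vm (n : ℕ) (z : ℤ × ℤ) : Prop :=
  (ins n z ∧ ¬ ins n (z + (0, 1))) ∨ (¬ ins n z ∧ ins n (z + (0, 1)))

noncomputable instance (n : ℕ) (z : ℤ × ℤ) : Decidable (Hm n z) := Classical.propDecidable _
noncomputable instance (n : ℕ) (z : ℤ × ℤ) : Decidable (Vm n z) := Classical.propDecidable _

theorem Hm_nonneg {n : ℕ} {z : ℤ × ℤ} (h : Hm n z) (h0 : 0 ≤ z.1) :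
    z.1 ^ 2 + z.2 ^ 2 < (n : ℤ) ^ 2 ∧ (n : ℤ) ^ 2 ≤ (z.1 + 1) ^ 2 + z.2 ^ 2 := by
  unfold Hm ins at h
  simp only [Prod.fst_add, Prod.snd_add, add_zero, not_lt] at h
  rcases h with ⟨h1, h2⟩ | ⟨h1, h2⟩
  · exact ⟨h1, h2⟩
  · exfalso; nlinarith

theorem Hm_neg {n : ℕ} {z : ℤ × ℤ} (h : Hm n z) (h0 : z.1 < 0) :
    (n : ℤ) ^ 2 ≤ z.1 ^ 2 + z.2 ^ 2 ∧ (z.1 + 1) ^ 2 + z.2 ^ 2 < (n : ℤ) ^ 2 := by
  unfold Hm ins at h
  simp only [Prod.fst_add, Prod.snd_add, add_zero, not_lt] at h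
  rcases h with ⟨h1, h2⟩ | ⟨h1, h2⟩
  · exfalso; nlinarith
  · exact ⟨h1, h2⟩

theorem Vm_nonneg {n : ℕ} {z : ℤ × ℤ} (h : Vm n z) (h0 : 0 ≤ z.2) :
    z.1 ^ 2 + z.2 ^ 2 < (n : ℤ) ^ 2 ∧ (n : ℤ) ^ 2 ≤ z.1 ^ 2 + (z.2 + 1) ^ 2 := by
  unfold Vm ins at h
  simp only [Prod.fst_add, Prod.snd_add, add_zero, not_lt] at h
  rcases h with ⟨h1, h2⟩ | ⟨h1, h2⟩
  · exact ⟨h1, h2⟩
  · exfalso; nlinarith

theorem Vm_neg {n : ℕ} {z : ℤ × ℤ} (h : Vm n z) (h0 : z.2 < 0) :
    (n : ℤ) ^ 2 ≤ z.1 ^ 2 + z.2 ^ 2 ∧ z.1 ^ 2 + (z.2 + 1) ^ 2 < (n : ℤ) ^ 2 := by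
  unfold Vm ins at h
  simp only [Prod.fst_add, Prod.snd_add, add_zero, not_lt] at h
  rcases h with ⟨h1, h2⟩ | ⟨h1, h2⟩
  · exfalso; nlinarith
  · exact ⟨h1, h2⟩

theorem Hm_inj {n : ℕ} {z w : ℤ × ℤ} (hz : Hm n z) (hw : Hm n w) (h2 : z.2 = w.2)
    (hs : (0 ≤ z.1) ↔ (0 ≤ w.1)) : z = w := by
  have key : z.1 = w.1 := by
    by_cases h0 : 0 ≤ z.1
    · have h0' := hs.1 h0
      obtain ⟨a1, a2⟩ := Hm_nonneg hz h0
      obtain ⟨b1, b2⟩ := Hm_nonneg hw h0'
      rw [h2] at a1 a2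
      by_contra hne
      rcases lt_or_gt_of_ne hne with hlt | hlt
      · have : z.1 + 1 ≤ w.1 := hlt
        nlinarith
      · have : w.1 + 1 ≤ z.1 := hlt
        nlinarith
    · have h0' : ¬ 0 ≤ w.1 := fun h => h0 (hs.2 h)
      push Not at h0 h0'
      obtain ⟨a1, a2⟩ := Hm_neg hz h0
      obtain ⟨b1, b2⟩ := Hm_neg hw h0'
      rw [h2] at a1 a2
      by_contra hne
      rcases lt_or_gt_of_ne hne with hlt | hlt
      · have : z.1 + 1 ≤ w.1 := hlt
        nlinarith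
      · have : w.1 + 1 ≤ z.1 := hlt
        nlinarith
  exact Prod.ext key h2

theorem Vm_inj {n : ℕ} {z w : ℤ × ℤ} (hz : Vm n z) (hw : Vm n w) (h1 : z.1 = w.1)
    (hs : (0 ≤ z.2) ↔ (0 ≤ w.2)) : z = w := by
  have key : z.2 = w.2 := by
    by_cases h0 : 0 ≤ z.2
    · have h0' := hs.1 h0
      obtain ⟨a1, a2⟩ := Vm_nonneg hz h0
      obtain ⟨b1, b2⟩ := Vm_nonneg hw h0'
      rw [h1] at a1 a2
      by_contra hne
      rcases lt_or_gt_of_ne hne with hlt | hlt
      · have : z.2 + 1 ≤ w.2 := hlt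
        nlinarith
      · have : w.2 + 1 ≤ z.2 := hlt
        nlinarith
    · have h0' : ¬ 0 ≤ w.2 := fun h => h0 (hs.2 h)
      push Not at h0 h0'
      obtain ⟨a1, a2⟩ := Vm_neg hz h0
      obtain ⟨b1, b2⟩ := Vm_neg hw h0'
      rw [h1] at a1 a2
      by_contra hne
      rcases lt_or_gt_of_ne hne with hlt | hlt
      · have : z.2 + 1 ≤ w.2 := hlt
        nlinarith
      · have : w.2 + 1 ≤ z.2 := hlt
        nlinarith
  exact Prod.ext h1 key

theorem card_Hm (n : ℕ) (w : ℤ × ℤ) :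
    ((sq n).filter (fun z => Hm n (z + w))).card ≤ 2 * (2 * n + 1) := by
  classical
  have h : ((sq n).filter (fun z => Hm n (z + w))).card ≤
      ((Finset.Icc (-(n : ℤ)) n) ×ˢ (Finset.univ : Finset Bool)).card := by
    apply Finset.card_le_card_of_injOn (fun z => (z.2, decide (0 ≤ (z + w).1)))
    · intro z hz
      obtain ⟨h1, h2⟩ := Finset.mem_filter.1 hz
      unfold sq at h1
      simp only [Finset.coe_product, Set.mem_prod, Finset.mem_coe, Finset.mem_univ, and_true]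
      exact (Finset.mem_product.1 h1).2
    · intro z hz z' hz' he
      obtain ⟨h1, h2⟩ := Finset.mem_filter.1 hz
      obtain ⟨h1', h2'⟩ := Finset.mem_filter.1 hz'
      simp only [Prod.mk.injEq, decide_eq_decide] at he
      have := Hm_inj h2 h2' (by simp only [Prod.snd_add, he.1]) he.2
      exact add_right_cancel this
  refine h.trans ?_
  rw [Finset.card_product, Int.card_Icc, Finset.card_univ, Fintype.card_bool]
  have : ((n : ℤ) + 1 - -(n : ℤ)).toNat = 2 * n + 1 := by omega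
  rw [this]
  omega

theorem card_Vm (n : ℕ) (w : ℤ × ℤ) :
    ((sq n).filter (fun z => Vm n (z + w))).card ≤ 2 * (2 * n + 1) := by
  classical
  have h : ((sq n).filter (fun z => Vm n (z + w))).card ≤
      ((Finset.Icc (-(n : ℤ)) n) ×ˢ (Finset.univ : Finset Bool)).card := by
    apply Finset.card_le_card_of_injOn (fun z => (z.1, decide (0 ≤ (z + w).2)))
    · intro z hz
      obtain ⟨h1, h2⟩ := Finset.mem_filter.1 hz
      unfold sq at h1
      simp only [Finset.coe_product, Set.mem_prod, Finset.mem_coe, Finset.mem_univ, and_true]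
      exact (Finset.mem_product.1 h1).1
    · intro z hz z' hz' he
      obtain ⟨h1, h2⟩ := Finset.mem_filter.1 hz
      obtain ⟨h1', h2'⟩ := Finset.mem_filter.1 hz'
      simp only [Prod.mk.injEq, decide_eq_decide] at he
      have := Vm_inj h2 h2' (by simp only [Prod.fst_add, he.1]) he.2
      exact add_right_cancel this
  refine h.trans ?_
  rw [Finset.card_product, Int.card_Icc, Finset.card_univ, Fintype.card_bool]
  have : ((n : ℤ) + 1 - -(n : ℤ)).toNat = 2 * n + 1 := by omega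
  rw [this]
  omega

/-- cell with corners on both sides of the circle -/
def Kk (n : ℕ) (z : ℤ × ℤ) : Prop :=
  Hm n (z + 0) ∨ Hm n (z + (0, 1)) ∨ Vm n (z + 0) ∨ Vm n (z + (1, 0))

noncomputable instance (n : ℕ) (z : ℤ × ℤ) : Decidable (Kk n z) := Classical.propDecidable _

theorem card_Kk (n : ℕ) : ((sq n).filter (fun z => Kk n z)).card ≤ 8 * (2 * n + 1) := by
  classical
  have h : (sq n).filter (fun z => Kk n z) ⊆
      ((sq n).filter (fun z => Hm n (z + 0)) ∪ (sq n).filter (fun z => Hm n (z + (0, 1)))) ∪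
      ((sq n).filter (fun z => Vm n (z + 0)) ∪ (sq n).filter (fun z => Vm n (z + (1, 0)))) := by
    intro z hz
    obtain ⟨h1, h2⟩ := Finset.mem_filter.1 hz
    simp only [Finset.mem_union, Finset.mem_filter]
    unfold Kk at h2
    tauto
  refine (Finset.card_le_card h).trans ((Finset.card_union_le _ _).trans ?_)
  have h1 := Finset.card_union_le ((sq n).filter (fun z => Hm n (z + 0)))
    ((sq n).filter (fun z => Hm n (z + (0, 1))))
  have h2 := Finset.card_union_le ((sq n).filter (fun z => Vm n (z + 0)))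
    ((sq n).filter (fun z => Vm n (z + (1, 0))))
  have a1 := card_Hm n 0
  have a2 := card_Hm n (0, 1)
  have a3 := card_Vm n 0
  have a4 := card_Vm n (1, 0)
  omega

/-- a cell which is not mixed has all its corners on the same side -/
theorem not_Kk {n : ℕ} {z : ℤ × ℤ} (h : ¬ Kk n z) :
    (ins n z ∧ ins n (z + (1, 0)) ∧ ins n (z + (0, 1)) ∧ ins n (z + (1, 0) + (0, 1))) ∨
    (¬ ins n z ∧ ¬ ins n (z + (1, 0)) ∧ ¬ ins n (z + (0, 1)) ∧
      ¬ ins n (z + (1, 0) + (0, 1))) := by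
  have e : z + (0, 1) + (1, 0) = z + (1, 0) + (0, 1) := by
    rw [add_assoc, add_assoc, add_comm ((0, 1) : ℤ × ℤ)]
  unfold Kk Hm Vm at h
  rw [add_zero, e] at h
  tauto

theorem sum_three_half_leQ {M : ℝ} (hM : 1 ≤ M) (n : ℕ) :
    ∑ z ∈ sq n, 1 / (qq M z * Real.sqrt (qq M z)) ≤ 25 / M := by
  unfold sq qq
  rw [Finset.sum_product]
  have hM0 : 0 < M := by linarith
  have hpi4 := Real.pi_lt_d2
  have h1 : ∀ z1 ∈ Finset.Icc (-(n : ℤ)) n, ∑ z2 ∈ Finset.Icc (-(n : ℤ)) n,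
      1 / ((M ^ 2 + (z1 : ℝ) ^ 2 + (z2 : ℝ) ^ 2) *
        Real.sqrt (M ^ 2 + (z1 : ℝ) ^ 2 + (z2 : ℝ) ^ 2)) ≤
      5 * (1 / (M ^ 2 + (z1 : ℝ) ^ 2)) := by
    intro z1 _
    have h0 : 0 < M ^ 2 + (z1 : ℝ) ^ 2 := by positivity
    set A := Real.sqrt (M ^ 2 + (z1 : ℝ) ^ 2) with hA
    have hA0 : 0 < A := Real.sqrt_pos.2 h0
    have hA1 : 1 ≤ A := by
      apply Real.le_sqrt_of_sq_le
      nlinarith only [hM]
    have hA2 : A ^ 2 = M ^ 2 + (z1 : ℝ) ^ 2 := Real.sq_sqrt h0.le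
    have h := sum_inv_sq hA0 n
    rw [hA2] at h
    calc ∑ z2 ∈ Finset.Icc (-(n : ℤ)) n,
        1 / ((M ^ 2 + (z1 : ℝ) ^ 2 + (z2 : ℝ) ^ 2) *
        Real.sqrt (M ^ 2 + (z1 : ℝ) ^ 2 + (z2 : ℝ) ^ 2))
        ≤ ∑ z2 ∈ Finset.Icc (-(n : ℤ)) n, (1 / A) * (1 / (M ^ 2 + (z1 : ℝ) ^ 2 + (z2 : ℝ) ^ 2)) := by
          refine Finset.sum_le_sum fun z2 _ => ?_
          rw [one_div_mul_one_div, mul_comm A]
          have h3 : A ≤ Real.sqrt (M ^ 2 + (z1 : ℝ) ^ 2 + (z2 : ℝ) ^ 2) := by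
            apply Real.sqrt_le_sqrt
            nlinarith only []
          (clear * - hM h3; gcongr)
      _ ≤ (1 / A) * (Real.pi / A + 1 / (M ^ 2 + (z1 : ℝ) ^ 2)) := by
          rw [← Finset.mul_sum]
          gcongr
      _ ≤ 5 * (1 / (M ^ 2 + (z1 : ℝ) ^ 2)) := by
          rw [← hA2]
          have e1 : (1 / A) * (Real.pi / A + 1 / A ^ 2) = (Real.pi + 1 / A) * (1 / A ^ 2) := by
            (clear * - hA0; field_simp)
          rw [e1]
          have e2 : 1 / A ≤ 1 := by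
            rw [div_le_one hA0]; exact hA1
          gcongr
          linarith only [hpi4, e2]
  refine (Finset.sum_le_sum h1).trans ?_
  rw [← Finset.mul_sum]
  have h2 := sum_inv_sq hM0 n
  have h3 : Real.pi / M + 1 / M ^ 2 ≤ 5 / M := by
    rw [div_add_div _ _ hM0.ne' (by positivity), div_le_div_iff₀ (by positivity) hM0]
    nlinarith [hpi4, mul_pos hM0 hM0, mul_pos (mul_pos hM0 hM0) hM0]
  have h4 : 5 * (5 / M) = 25 / M := by ring
  linarith

section

variable {M : ℝ} (hM : 9 ≤ M)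
include hM

/-- error terms of a cell -/
theorem E_leQ {n : ℕ} (hn : 1 ≤ n) (z : ℤ × ℤ) :
    |ck (psi M n) z| * cY (psi M n) z + cY (psi M n) z ^ 4 ≤
      8000 * (1 / (qq M z * Real.sqrt (qq M z))) + if Kk n z then 1100 / (n : ℝ) ^ 2 else 0 := by
  by_cases hk : Kk n z
  · rw [if_pos hk]
    exact E_le hM hn z
  rw [if_neg hk, add_zero]
  have hY := cY_le hM n z
  have hY0 : 0 ≤ cY (psi M n) z := by unfold cY; positivity
  have hq := qq_ge hM z
  have hq0 := qq_pos hM z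
  have hmix := phi_mixed hM z
  have hck : |ck (psi M n) z| ≤ 36 / qq M z := by
    have hL : ∀ w : ℤ × ℤ, ins n w → psi M n w = Real.log (M ^ 2 + (n : ℝ) ^ 2) / 2 - phi M w := by
      intro w hw
      unfold psi
      apply max_eq_right
      unfold phi qq
      have h1 : (w.1 : ℝ) ^ 2 + (w.2 : ℝ) ^ 2 < (n : ℝ) ^ 2 := by
        unfold ins at hw
        exact_mod_cast hw
      have h2 : Real.log (M ^ 2 + (w.1 : ℝ) ^ 2 + (w.2 : ℝ) ^ 2) ≤
          Real.log (M ^ 2 + (n : ℝ) ^ 2) := by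
        apply Real.log_le_log (by positivity)
        linarith
      linarith
    have hO : ∀ w : ℤ × ℤ, ¬ ins n w → psi M n w = 0 := by
      intro w hw
      apply psi_zero_of hM
      unfold ins at hw
      push Not at hw
      exact_mod_cast hw
    rcases not_Kk hk with ⟨a0, a1, a2, a3⟩ | ⟨a0, a1, a2, a3⟩
    · unfold ck
      rw [hL _ a0, hL _ a1, hL _ a2, hL _ a3]
      rw [show ∀ L p0 p1 p2 p3 : ℝ, L - p3 - (L - p1) - (L - p2) + (L - p0) =
        -(p3 - p1 - p2 + p0) from fun L p0 p1 p2 p3 => by ring, abs_neg]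
      exact hmix
    · unfold ck
      rw [hO _ a0, hO _ a1, hO _ a2, hO _ a3]
      simp only [sub_self, add_zero, abs_zero]
      positivity
  set r := Real.sqrt (qq M z) with hr
  have hr9 : 9 ≤ r := Real.le_sqrt_of_sq_le (by linarith only [hq])
  have hr2 : r * r = qq M z := Real.mul_self_sqrt hq0.le
  have hr0 : 0 < r := by linarith only [hr9]
  -- fourth power
  have hY4 : cY (psi M n) z ^ 4 ≤ 7300 * (1 / (qq M z * r)) := by
    calc cY (psi M n) z ^ 4 ≤ (16 / r) ^ 4 := pow_le_pow_left₀ hY0 hY 4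
      _ = 65536 * (1 / (qq M z * r)) * (1 / r) := by
          rw [← hr2]; field_simp; (clear * -; norm_num)
      _ ≤ 65536 * (1 / (qq M z * r)) * (1 / 9) := by (clear * - hr9 hq; gcongr)
      _ ≤ 7300 * (1 / (qq M z * r)) := by
          have : 0 ≤ 1 / (qq M z * r) := by (clear * - hq; positivity)
          nlinarith only [this]
  have hpos1 : 0 ≤ 1 / (qq M z * r) := by (clear * - hq; positivity)
  have h1 : |ck (psi M n) z| * cY (psi M n) z ≤ 576 * (1 / (qq M z * r)) := by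
    calc |ck (psi M n) z| * cY (psi M n) z ≤ (36 / qq M z) * (16 / r) := by
          (clear * - hck hY hY0 hq; gcongr)
      _ = 576 * (1 / (qq M z * r)) := by field_simp; norm_num
  linarith only [hY4, hpos1, h1]

end

theorem sum_E_leQ {M : ℝ} (hM : 9 ≤ M) {n : ℕ} (hn : 1 ≤ n) (S : Finset (ℤ × ℤ)) (x : ℤ × ℤ) :
    ∑ z ∈ S, (|ck (psi M n) (z - x)| * cY (psi M n) (z - x) + cY (psi M n) (z - x) ^ 4) ≤
      200000 / M + 26400 / n := by
  classical
  have h0 : ∑ z ∈ S, (|ck (psi M n) (z - x)| * cY (psi M n) (z - x) +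
      cY (psi M n) (z - x) ^ 4) ≤
      ∑ z ∈ sq n, (|ck (psi M n) z| * cY (psi M n) z + cY (psi M n) z ^ 4) := by
    rw [← Finset.sum_image (f := fun z => |ck (psi M n) z| * cY (psi M n) z +
      cY (psi M n) z ^ 4) (g := fun z => z - x) (s := S) (fun a _ b _ h => sub_left_injective h)]
    apply sum_le_of_support (fun z => by unfold cY; (clear * -; positivity))
    intro z hz
    obtain ⟨h1, h2, h3⟩ := psi_inactive hM hz
    simp [cY, h1, h2, h3]
  refine h0.trans ?_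
  refine (Finset.sum_le_sum fun z _ => E_leQ hM hn z).trans ?_
  rw [Finset.sum_add_distrib, ← Finset.mul_sum, ← Finset.sum_filter, Finset.sum_const,
    nsmul_eq_mul]
  have h2 := sum_three_half_leQ (M := M) (by linarith only [hM]) n
  have hn1 : (1 : ℝ) ≤ n := by exact_mod_cast hn
  have hc : (((sq n).filter (fun z => Kk n z)).card : ℝ) ≤ 24 * n := by
    have h3 := card_Kk n
    have h4 : ((sq n).filter (fun z => Kk n z)).card ≤ 24 * n := by omega
    exact_mod_cast h4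
  have h3 : (((sq n).filter (fun z => Kk n z)).card : ℝ) * (1100 / (n : ℝ) ^ 2) ≤ 26400 / n := by
    calc (((sq n).filter (fun z => Kk n z)).card : ℝ) * (1100 / (n : ℝ) ^ 2)
        ≤ (24 * n) * (1100 / (n : ℝ) ^ 2) := mul_le_mul_of_nonneg_right hc (by positivity)
      _ = 26400 / n := by field_simp; norm_num
  have h4 : 8000 * (25 / M) = 200000 / M := by ring
  linarith only [h2, h3, h4]

end NC.H731

end Vale.Agent.P159
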