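import Vale.Agent.P159.Bdl.B8
import Vale.Agent.P159.T1.NC.H731.KinkQ

set_option linter.all false

/-!
The McBryan-Spencer bound at the corners of the blocks of side `l`, with a constant which is
polynomial in `l`.
-/

open MeasureTheory Filter Topology
open scoped BigOperators

namespace Vale.Agent.P159

namespace NC.H731

/-- the constant of the expansion of a block -/
noncomputable def cS (S : ℝ) : ℝ := S + S ^ 2 + (S + 6 * S ^ 2 + 4 * S ^ 3 + 16 * S ^ 4) + 1

theorem one_le_cS {S : ℝ} (hS : 0 ≤ S) : 1 ≤ cS S := by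
  unfold cS
  have : 0 ≤ S + S ^ 2 + (S + 6 * S ^ 2 + 4 * S ^ 3 + 16 * S ^ 4) := by positivity
  linarith

section

variable {G : Type*} [AddCommGroup G] [TopologicalSpace G] [IsTopologicalAddGroup G]
  [CompactSpace G] [SecondCountableTopology G] [MeasurableSpace G] [BorelSpace G]
  (μ : Measure G) [μ.IsAddHaarMeasure] [IsProbabilityMeasure μ]
  {κ : Type*} [Fintype κ] (J : κ → ℝ) (χ : κ → Chr G)

theorem rho_expandQ (hJ : ∀ e, 0 ≤ J e) (h v w : κ → ℝ) (habs_h : ∀ e, |h e| ≤ 1)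
    (habs_v : ∀ e, |v e| ≤ 1) (hhv : ∀ e, h e * v e = 0) (hw : ∀ e, |w e| ≤ 1)
    (hcross : gibbs μ J χ (fun x => (∑ e, J e * h e * (χ e).s x) *
      (∑ e, J e * v e * (χ e).s x)) = 0) (S : ℝ) (hS : S = ∑ e, J e)
    (p q k : ℝ) (hpqk : |p| + |q| + |k| ≤ 1 / (2 * S + 1)) :
      rho μ J χ (fun e => p * h e + q * v e + k * w e) ≤
        Real.exp ((p ^ 2 * Qform μ J χ h + q ^ 2 * Qform μ J χ v) / 2 +
          cS S * (|k| * (|p| + |q| + |k|) + (|p| + |q| + |k|) ^ 4)) := by
  have hS0 : 0 ≤ S := by rw [hS]; exact Finset.sum_nonneg fun e _ => hJ e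
  obtain ⟨D, hD⟩ : ∃ D, D = S + 6 * S ^ 2 + 4 * S ^ 3 + 16 * S ^ 4 := ⟨_, rfl⟩
  have hD0 : 0 ≤ D := by rw [hD]; positivity
  obtain ⟨Y, hY⟩ : ∃ Y, Y = |p| + |q| + |k| := ⟨_, rfl⟩
  have hY0 : 0 ≤ Y := by rw [hY]; positivity
  rw [← hY] at hpqk ⊢
  have hY1 : Y ≤ 1 := hpqk.trans (by
    rw [div_le_one (by positivity)]; linarith)
  have hSY : 2 * S * Y ≤ 1 := by
    have h1 : 2 * S * Y ≤ 2 * S * (1 / (2 * S + 1)) := mul_le_mul_of_nonneg_left hpqk (by positivity)
    refine h1.trans ?_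
    rw [mul_one_div, div_le_one (by positivity)]
    linarith
  have hy : ∀ e, |p * h e + q * v e + k * w e| ≤ Y := by
    intro e
    calc |p * h e + q * v e + k * w e| ≤ |p * h e| + |q * v e| + |k * w e| := by
          refine (abs_add_le _ _).trans ?_
          gcongr
          exact abs_add_le _ _
      _ ≤ |p| + |q| + |k| := by
          rw [abs_mul, abs_mul, abs_mul]
          gcongr
          · exact mul_le_of_le_one_right (abs_nonneg _) (habs_h e)
          · exact mul_le_of_le_one_right (abs_nonneg _) (habs_v e)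
          · exact mul_le_of_le_one_right (abs_nonneg _) (hw e)
      _ = Y := hY.symm
  have hrho := rho_second μ J χ hJ hS.symm _ hY1 hSY hy hY0
  have hQ := Qform_expand μ J χ hJ h v w habs_h habs_v hhv hw hcross S hS p q k Y hY
  unfold cS
  rw [← hD] at hrho ⊢
  refine hrho.trans ?_
  have hY4 : 0 ≤ Y ^ 4 := by positivity
  have hkY : 0 ≤ |k| * Y := by positivity
  have h1 : 0 ≤ (D + 1) * (|k| * Y) := by positivity
  have h2 : 0 ≤ (S + S ^ 2 + 1) * Y ^ 4 := by positivity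
  generalize Qform μ J χ (fun e => p * h e + q * v e + k * w e) = Q0 at *
  generalize Qform μ J χ h = Q1 at *
  generalize Qform μ J χ v = Q2 at *
  have hfin : 1 + Q0 / 2 + D * Y ^ 4 ≤ ((p ^ 2 * Q1 + q ^ 2 * Q2) / 2 +
          (S + S ^ 2 + D + 1) * (|k| * Y + Y ^ 4)) + 1 := by
    linarith only [h1, h2, hQ]
  exact hfin.trans (Real.add_one_le_exp _)

end

/-- sum of the couplings of a block -/
theorem sum_J (l : ℕ) (b : ℝ) : ∑ _e : BI l, b / 2 = 2 * b * (l : ℝ) ^ 2 := by
  rw [Finset.sum_const, nsmul_eq_mul, Finset.card_univ]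
  have : Fintype.card (BI l) = l * l * 4 := by
    simp [BI, Fintype.card_prod]
  rw [this]
  push_cast
  ring

/-- bound of one block factor -/
theorem rho_blockQ {l : ℕ} (hl : 1 ≤ l) {b U : ℝ} (hb : 0 ≤ b) (hU : stiff l b ≤ U)
    {S : ℝ} (hS : S = 2 * b * (l : ℝ) ^ 2) (a : ℤ × ℤ → ℝ) (k : ℤ × ℤ)
    (hY : cY a k ≤ 1 / (2 * S + 1)) :
      rho muInf (fun _ : BI l => b / 2) (chi0 l)
        (fun e => (-(cp a k / l)) * hh e + (-(cq a k / l)) * vv e + (-(ck a k / l)) * ww e) ≤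
        Real.exp (U / 2 * (cp a k ^ 2 + cq a k ^ 2) + cS S * (|ck a k| * cY a k + cY a k ^ 4)) := by
  have h := rho_expandQ muInf (fun _ : BI l => b / 2) (chi0 l)
    (fun _ => by positivity) hh vv ww hh_abs vv_abs hh_mul_vv (ww_abs hl) (cross_zero l b)
    S (by rw [hS, sum_J])
  have hS0 : 0 ≤ S := by rw [hS]; positivity
  have hl1 : (1 : ℝ) ≤ l := by exact_mod_cast hl
  have hl0 : (0 : ℝ) < l := by linarith
  have hY0 : 0 ≤ cY a k := by unfold cY; positivity
  have e1 : |(-(cp a k / l))| + |(-(cq a k / l))| + |(-(ck a k / l))| = cY a k / l := by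
    unfold cY
    rw [abs_neg, abs_neg, abs_neg, abs_div, abs_div, abs_div, abs_of_pos hl0]
    ring
  have e2 : cY a k / l ≤ cY a k := div_le_self hY0 hl1
  have h1 := h (-(cp a k / l)) (-(cq a k / l)) (-(ck a k / l)) (by rw [e1]; linarith)
  refine h1.trans (Real.exp_le_exp.2 ?_)
  rw [e1, Q_h l b hl, Q_v l b hl]
  have e3 : ((-(cp a k / l)) ^ 2 * ((l : ℝ) ^ 2 * stiff l b) +
      (-(cq a k / l)) ^ 2 * ((l : ℝ) ^ 2 * stiff l b)) / 2 =
      stiff l b / 2 * (cp a k ^ 2 + cq a k ^ 2) := by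
    field_simp
  rw [e3]
  have e4 : |(-(ck a k / l))| ≤ |ck a k| := by
    rw [abs_neg, abs_div, abs_of_pos hl0]
    exact div_le_self (abs_nonneg _) hl1
  have e5 : 0 ≤ cY a k / l := by positivity
  have e6 : 0 ≤ cS S := zero_le_one.trans (one_le_cS hS0)
  gcongr

/-- starting radius of the profile -/
noncomputable def rM (S : ℝ) : ℝ := 9 + 16 * (2 * S + 1) + 460000 * cS S

theorem nine_le_rM {S : ℝ} (hS : 0 ≤ S) : 9 ≤ rM S := by
  have := one_le_cS hS
  unfold rM
  linarith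

/-- power law bound at the corners of the blocks, slope one, explicit constant -/
theorem ms_coarseQ {l : ℕ} (hl : 1 ≤ l) {b : ℝ} (hb : 0 ≤ b) {U : ℝ} (hU0 : 0 ≤ U)
    (hU : stiff l b ≤ U) {S s : ℝ} (hSd : S = 2 * b * (l : ℝ) ^ 2) (hs : s = 2 - 2 * Real.pi * U)
    (R : ℕ) (x : ℤ × ℤ) (hx0 : x ≠ 0) (hxR : cor l x ∈ box R) :
      corr R b (cor l x) ≤ (Real.exp (U * 4600 + 2) * rM S ^ 2 * (4 : ℝ) ^ |s| +
        (2 * rM S + 4) ^ |s|) * ((max |x.1| |x.2| : ℤ) : ℝ) ^ (-s) := by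
  have hS0 : 0 ≤ S := by rw [hSd]; positivity
  have hcS := one_le_cS hS0
  obtain ⟨C, hC⟩ : ∃ C, C = cS S := ⟨_, rfl⟩
  obtain ⟨M, hMdef⟩ : ∃ M, M = rM S := ⟨_, rfl⟩
  rw [← hMdef]
  have hM : 9 ≤ M := by rw [hMdef]; exact nine_le_rM hS0
  have hM0 : 0 < M := by linarith
  have hMv : M = 9 + 16 * (2 * S + 1) + 460000 * C := by rw [hMdef, hC]; rfl
  set c0 := 2 * Real.log M + U * 4600 + 2 with hc0
  have hK1 : Real.exp (U * 4600 + 2) * M ^ 2 = Real.exp c0 := by
    rw [hc0, show 2 * Real.log M + U * 4600 + 2 = (U * 4600 + 2) + (Real.log M + Real.log M) by ring,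
      Real.exp_add (U * 4600 + 2), Real.exp_add (Real.log M), Real.exp_log hM0, ← pow_two]
  rw [hK1]
  obtain ⟨X, hX⟩ : ∃ X : ℕ, (X : ℤ) = max |x.1| |x.2| :=
    ⟨(max |x.1| |x.2|).toNat, Int.toNat_of_nonneg (le_max_of_le_left (abs_nonneg _))⟩
  have hX1 : 1 ≤ X := by
    by_contra h
    have h0 : X = 0 := by omega
    rw [h0] at hX
    apply hx0
    have h1 : |x.1| ≤ 0 := by
      have := le_max_left |x.1| |x.2|
      omega
    have h2 : |x.2| ≤ 0 := by
      have := le_max_right |x.1| |x.2|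
      omega
    ext
    · exact abs_eq_zero.1 (le_antisymm h1 (abs_nonneg _))
    · exact abs_eq_zero.1 (le_antisymm h2 (abs_nonneg _))
  rw [← hX]
  have hXr : (1 : ℝ) ≤ ((X : ℤ) : ℝ) := by exact_mod_cast hX1
  have hXpos : (0 : ℝ) < ((X : ℤ) : ℝ) := by linarith
  have h4s : (0 : ℝ) < (4 : ℝ) ^ |s| := by positivity
  have hMs : (0 : ℝ) < (2 * M + 4) ^ |s| := by positivity
  by_cases hsmall : ((X : ℤ) : ℝ) ≤ 2 * M + 4
  · -- small distances
    have h1 : (1 : ℝ) ≤ (2 * M + 4) ^ |s| * ((X : ℤ) : ℝ) ^ (-s) := by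
      have h2 : ((X : ℤ) : ℝ) ^ s ≤ (2 * M + 4) ^ |s| := by
        calc ((X : ℤ) : ℝ) ^ s ≤ ((X : ℤ) : ℝ) ^ |s| :=
              Real.rpow_le_rpow_of_exponent_le hXr (le_abs_self s)
          _ ≤ (2 * M + 4) ^ |s| := Real.rpow_le_rpow hXpos.le hsmall (abs_nonneg s)
      rw [Real.rpow_neg hXpos.le, ← div_eq_mul_inv, le_div_iff₀ (Real.rpow_pos_of_pos hXpos s),
        one_mul]
      exact h2
    have h2 := corr_le_one R (b := b) hxR
    have h3 : 0 ≤ Real.exp c0 * (4 : ℝ) ^ |s| * ((X : ℤ) : ℝ) ^ (-s) := by positivity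
    rw [add_mul]
    linarith only [h1, h2, h3]
  · push Not at hsmall
    obtain ⟨n, hn⟩ : ∃ n : ℕ, n = (X - 1) / 2 := ⟨_, rfl⟩
    have hX22 : 22 < X := by
      have h1 : (22 : ℝ) < ((X : ℤ) : ℝ) := by linarith
      exact_mod_cast h1
    have hn1 : 1 ≤ n := by omega
    have hn2 : 2 * n < X := by omega
    have hn3 : X ≤ 4 * n := by omega
    have hn4 : X ≤ 2 * n + 2 := by omega
    have hnr : (1 : ℝ) ≤ (n : ℝ) := by exact_mod_cast hn1
    have hnM : M ≤ n := by
      have h1 : ((X : ℤ) : ℝ) ≤ 2 * n + 2 := by exact_mod_cast hn4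
      linarith
    have hx2 : 2 * (n : ℤ) < max |x.1| |x.2| := by rw [← hX]; exact_mod_cast hn2
    set a : ℤ × ℤ → ℝ := fun z => 1 * (psi M n z - psi M n (z - x)) with ha
    have hgrid := grid_bound hl (R + 1) hb a x
    refine (corr_le_grid hl (le_refl _) hb hxR hgrid).trans ?_
    -- smallness
    have hYsmall : ∀ k, cY a k ≤ 1 / (2 * S + 1) := by
      intro k
      refine (two_centre hM one_pos hx2 k).2.1.trans ?_
      have h1 : ∀ z, cY (psi M n) z ≤ 16 / M := by
        intro z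
        refine (cY_le hM n z).trans ?_
        have h2 : M ≤ Real.sqrt (qq M z) := by
          apply Real.le_sqrt_of_sq_le
          unfold qq
          nlinarith only []
        gcongr
      have h2 : 1 * max (cY (psi M n) k) (cY (psi M n) (k - x)) ≤ 1 * (16 / M) :=
        mul_le_mul_of_nonneg_left (max_le (h1 _) (h1 _)) zero_le_one
      refine h2.trans ?_
      rw [one_mul, div_le_div_iff₀ hM0 (by positivity), hMv]
      linarith
    have hprod : ∏ k ∈ ivl (R + 1) ×ˢ ivl (R + 1), rho muInf (fun _ : BI l => b / 2) (chi0 l)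
        (fun e => (-(cp a k / l)) * hh e + (-(cq a k / l)) * vv e + (-(ck a k / l)) * ww e) ≤
        Real.exp (U * (2 * Real.pi * Real.log n + 4600) + 2) := by
      have h1 : ∏ k ∈ ivl (R + 1) ×ˢ ivl (R + 1), rho muInf (fun _ : BI l => b / 2) (chi0 l)
        (fun e => (-(cp a k / l)) * hh e + (-(cq a k / l)) * vv e + (-(ck a k / l)) * ww e) ≤
        ∏ k ∈ ivl (R + 1) ×ˢ ivl (R + 1), Real.exp (U / 2 * (cp a k ^ 2 + cq a k ^ 2) +
          C * (|ck a k| * cY a k + cY a k ^ 4)) :=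
        Finset.prod_le_prod (fun k _ => div_nonneg (norm_nonneg _) (norm_nonneg _))
          (fun k _ => by rw [hC]; exact rho_blockQ hl hb hU hSd a k (hYsmall k))
      refine h1.trans ?_
      rw [← Real.exp_sum]
      apply Real.exp_le_exp.2
      set T := ivl (R + 1) ×ˢ ivl (R + 1) with hT
      have hC0 : 0 ≤ C := by rw [hC]; linarith
      have h2 : ∀ k ∈ T, U / 2 * (cp a k ^ 2 + cq a k ^ 2) +
          C * (|ck a k| * cY a k + cY a k ^ 4) ≤
          U / 2 * ((cp (psi M n) (k - 0) ^ 2 + cq (psi M n) (k - 0) ^ 2) +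
            (cp (psi M n) (k - x) ^ 2 + cq (psi M n) (k - x) ^ 2)) +
          2 * C * ((|ck (psi M n) (k - 0)| * cY (psi M n) (k - 0) +
            cY (psi M n) (k - 0) ^ 4) +
            (|ck (psi M n) (k - x)| * cY (psi M n) (k - x) + cY (psi M n) (k - x) ^ 4)) := by
        intro k _
        obtain ⟨g1, _, g3⟩ := two_centre hM one_pos hx2 k
        rw [sub_zero]
        have g4 := mul_le_mul_of_nonneg_left g3 hC0
        rw [g1]
        have g5 : C * (((1 : ℝ) ^ 2 + (1 : ℝ) ^ 4) * (|ck (psi M n) k| * cY (psi M n) k +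
            cY (psi M n) k ^ 4 + (|ck (psi M n) (k - x)| * cY (psi M n) (k - x) +
            cY (psi M n) (k - x) ^ 4))) = 2 * C * (|ck (psi M n) k| * cY (psi M n) k +
            cY (psi M n) k ^ 4 + (|ck (psi M n) (k - x)| * cY (psi M n) (k - x) +
            cY (psi M n) (k - x) ^ 4)) := by ring
        rw [g5] at g4
        rw [one_pow, one_mul]
        exact add_le_add le_rfl g4
      refine (Finset.sum_le_sum h2).trans ?_
      rw [Finset.sum_add_distrib, ← Finset.mul_sum, ← Finset.mul_sum]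
      have k1 : ∑ k ∈ T, ((cp (psi M n) (k - 0) ^ 2 + cq (psi M n) (k - 0) ^ 2) +
            (cp (psi M n) (k - x) ^ 2 + cq (psi M n) (k - x) ^ 2)) =
          ∑ k ∈ T, (cp (psi M n) (k - 0) ^ 2 + cq (psi M n) (k - 0) ^ 2) +
          ∑ k ∈ T, (cp (psi M n) (k - x) ^ 2 + cq (psi M n) (k - x) ^ 2) :=
        Finset.sum_add_distrib
      have k2 : ∑ k ∈ T, ((|ck (psi M n) (k - 0)| * cY (psi M n) (k - 0) +
            cY (psi M n) (k - 0) ^ 4) + (|ck (psi M n) (k - x)| * cY (psi M n) (k - x) +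
            cY (psi M n) (k - x) ^ 4)) =
          ∑ k ∈ T, (|ck (psi M n) (k - 0)| * cY (psi M n) (k - 0) +
            cY (psi M n) (k - 0) ^ 4) + ∑ k ∈ T, (|ck (psi M n) (k - x)| * cY (psi M n) (k - x) +
            cY (psi M n) (k - x) ^ 4) := Finset.sum_add_distrib
      rw [k1, k2]
      have p0 := sum_P_le hM hn1 T 0
      have p1 := sum_P_le hM hn1 T x
      have q0 := sum_E_leQ hM hn1 T 0
      have q1 := sum_E_leQ hM hn1 T x
      have q2 : 200000 / M + 26400 / (n : ℝ) ≤ 226400 / M := by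
        have h3 : 26400 / (n : ℝ) ≤ 26400 / M := by gcongr
        have h4 : 226400 / M = 200000 / M + 26400 / M := by ring
        linarith
      have r1 : U / 2 * (∑ k ∈ T, (cp (psi M n) (k - 0) ^ 2 + cq (psi M n) (k - 0) ^ 2) +
          ∑ k ∈ T, (cp (psi M n) (k - x) ^ 2 + cq (psi M n) (k - x) ^ 2)) ≤
          U / 2 * ((2 * Real.pi * Real.log n + 4600) +
            (2 * Real.pi * Real.log n + 4600)) :=
        mul_le_mul_of_nonneg_left (add_le_add p0 p1) (by positivity)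
      have r2 : 2 * C * (∑ k ∈ T, (|ck (psi M n) (k - 0)| * cY (psi M n) (k - 0) +
            cY (psi M n) (k - 0) ^ 4) + ∑ k ∈ T, (|ck (psi M n) (k - x)| * cY (psi M n) (k - x) +
            cY (psi M n) (k - x) ^ 4)) ≤ 2 * C * (226400 / M + 226400 / M) :=
        mul_le_mul_of_nonneg_left (add_le_add (q0.trans q2) (q1.trans q2)) (by positivity)
      have r3 : 2 * C * (226400 / M + 226400 / M) ≤ 2 := by
        have h3 : 2 * C * (226400 / M + 226400 / M) = (905600 * C) / M := by ring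
        rw [h3, div_le_iff₀ hM0, hMv]
        linarith
      linarith only [r1, r2, r3]
    have hdiff : 2 * Real.log n - 2 * Real.log M ≤ a 0 - a x := by
      have hzero : ∀ w : ℤ × ℤ, (n : ℤ) < max |w.1| |w.2| → psi M n w = 0 := by
        intro w hw
        by_contra hne
        obtain ⟨h1, h2⟩ := psi_support hM hne
        have := max_lt h1 h2
        omega
      have e1 : psi M n (0 - x) = 0 := by
        apply hzero
        simp only [zero_sub, Prod.fst_neg, Prod.snd_neg, abs_neg]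
        omega
      have e2 : psi M n x = 0 := by
        apply hzero
        omega
      simp only [ha]
      rw [e1, e2, sub_self]
      have e3 : Real.log n - Real.log M ≤ psi M n 0 := by
        unfold psi phi qq
        refine le_trans ?_ (le_max_right _ _)
        have h1 : Real.log ((n : ℝ) ^ 2) ≤ Real.log (M ^ 2 + (n : ℝ) ^ 2) := by
          apply Real.log_le_log (by positivity)
          nlinarith only []
        rw [Real.log_pow] at h1
        have h2 : M ^ 2 + (((0 : ℤ × ℤ).1 : ℤ) : ℝ) ^ 2 + (((0 : ℤ × ℤ).2 : ℤ) : ℝ) ^ 2 = M ^ 2 := by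
          simp
        rw [h2, Real.log_pow]
        push_cast at h1 ⊢
        linarith only [h1]
      linarith only [e3]
    have htot : Real.exp (-(a 0 - a x)) * ∏ k ∈ ivl (R + 1) ×ˢ ivl (R + 1),
        rho muInf (fun _ : BI l => b / 2) (chi0 l)
        (fun e => (-(cp a k / l)) * hh e + (-(cq a k / l)) * vv e + (-(ck a k / l)) * ww e) ≤
        Real.exp c0 * (n : ℝ) ^ (-s) := by
      calc _ ≤ Real.exp (-(2 * Real.log n - 2 * Real.log M)) *
            Real.exp (U * (2 * Real.pi * Real.log n + 4600) + 2) := by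
            apply mul_le_mul _ hprod _ (Real.exp_pos _).le
            · exact Real.exp_le_exp.2 (by linarith only [hdiff])
            · exact Finset.prod_nonneg fun k _ => div_nonneg (norm_nonneg _) (norm_nonneg _)
        _ = Real.exp c0 * (n : ℝ) ^ (-s) := by
            rw [Real.rpow_def_of_pos (by linarith only [hnr]), ← Real.exp_add, ← Real.exp_add]
            congr 1
            rw [hc0, hs]
            ring
    refine htot.trans ?_
    have hns : (n : ℝ) ^ (-s) ≤ (4 : ℝ) ^ |s| * ((X : ℤ) : ℝ) ^ (-s) := by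
      have hn0 : (0 : ℝ) < n := by linarith only [hnr]
      have hXn : ((X : ℤ) : ℝ) ≤ 4 * n := by exact_mod_cast hn3
      have hnX : (n : ℝ) ≤ ((X : ℤ) : ℝ) := by
        have : n ≤ X := by omega
        exact_mod_cast this
      rcases le_or_gt 0 s with h | h
      · rw [abs_of_nonneg h, Real.rpow_neg hn0.le, Real.rpow_neg hXpos.le, ← div_eq_mul_inv,
          le_div_iff₀ (Real.rpow_pos_of_pos hXpos s), ← div_eq_inv_mul,
          div_le_iff₀ (Real.rpow_pos_of_pos hn0 s), ← Real.mul_rpow (by norm_num) hn0.le]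
        exact Real.rpow_le_rpow hXpos.le hXn h
      · calc (n : ℝ) ^ (-s) ≤ ((X : ℤ) : ℝ) ^ (-s) := Real.rpow_le_rpow hn0.le hnX (by linarith only [h])
          _ ≤ (4 : ℝ) ^ |s| * ((X : ℤ) : ℝ) ^ (-s) := by
            have : (1 : ℝ) ≤ (4 : ℝ) ^ |s| := Real.one_le_rpow (by norm_num) (abs_nonneg s)
            have h0 : 0 ≤ ((X : ℤ) : ℝ) ^ (-s) := by positivity
            nlinarith only [this, h0]
    have h5 : Real.exp c0 * (n : ℝ) ^ (-s) ≤ Real.exp c0 * ((4 : ℝ) ^ |s| * ((X : ℤ) : ℝ) ^ (-s)) :=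
      mul_le_mul_of_nonneg_left hns (Real.exp_pos _).le
    have h6 : 0 ≤ (2 * M + 4) ^ |s| * ((X : ℤ) : ℝ) ^ (-s) := by positivity
    rw [add_mul]
    linarith only [h5, h6]

end NC.H731

end Vale.Agent.P159
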